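import Mathlib

/-!
# P267, package SERRE: smooth families of continuous functions

If `F z w` is jointly smooth (in local coordinates of the compact space `X ∋ z`), then
`w ↦ F · w` is smooth with values in the Banach space `C(X, W)`.
-/

open Filter Topology Set Metric
open scoped ContDiff

namespace Vale.Agent.P267.H439

noncomputable section

variable {X : Type*} [TopologicalSpace X] [CompactSpace X]
variable {E' : Type*} [NormedAddCommGroup E'] [NormedSpace ℝ E']
variable {E : Type*} [NormedAddCommGroup E] [NormedSpace ℝ E]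

/-- `F z w` is of class `C^n` near `(z0, w0)` in a coordinate system `φ` of `X` -/
def JointAt (E' : Type*) [NormedAddCommGroup E'] [NormedSpace ℝ E']
    {W : Type*} [NormedAddCommGroup W] [NormedSpace ℝ W] (n : ℕ∞ω)
    (F : X → E → W) (z0 : X) (w0 : E) : Prop :=
  ∃ V ∈ 𝓝 z0, ∃ U0 ∈ 𝓝 w0, ∃ (φ : X → E') (H : E' × E → W), ContinuousOn φ V ∧
    (∀ z ∈ V, ∀ w ∈ U0, ContDiffAt ℝ n H (φ z, w)) ∧ ∀ z ∈ V, ∀ w ∈ U0, F z w = H (φ z, w)

variable {W : Type*} [NormedAddCommGroup W] [NormedSpace ℝ W]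

omit [CompactSpace X] in
theorem JointAt.continuousAt {F : X → E → W} {z0 : X} {w0 : E}
    (h : JointAt E' 0 F z0 w0) : ContinuousAt (fun p : X × E => F p.1 p.2) (z0, w0) := by
  obtain ⟨V, hV, U0, hU0, φ, H, hφ, hH, hF⟩ := h
  have h1 : ContinuousAt H (φ z0, w0) :=
    (hH z0 (mem_of_mem_nhds hV) w0 (mem_of_mem_nhds hU0)).continuousAt
  have h2 : ContinuousAt (fun p : X × E => (φ p.1, p.2)) (z0, w0) :=
    ((hφ.continuousAt hV).comp continuousAt_fst).prodMk continuousAt_snd
  have h3 : ContinuousAt (fun p : X × E => H (φ p.1, p.2)) (z0, w0) :=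
    ContinuousAt.comp (f := fun p : X × E => (φ p.1, p.2)) h1 h2
  refine h3.congr ?_
  have : V ×ˢ U0 ∈ 𝓝 (z0, w0) := prod_mem_nhds hV hU0
  filter_upwards [this] with p hp
  exact (hF p.1 hp.1 p.2 hp.2).symm

omit [NormedSpace ℝ W] in
/-- joint continuity at all points of the compact fibre gives continuity into `C(X, W)` -/
theorem continuousAt_toC {Y : Type*} [TopologicalSpace Y] {g : Y → C(X, W)} {w0 : Y}
    (h : ∀ z, ContinuousAt (fun p : X × Y => g p.2 p.1) (z, w0)) : ContinuousAt g w0 := by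
  rw [ContinuousAt, ContinuousMap.tendsto_iff_tendstoUniformly, Metric.tendstoUniformly_iff]
  intro ε hε
  have key : ∀ z : X, ∃ V ∈ 𝓝 z, ∀ᶠ w in 𝓝 w0, ∀ z' ∈ V, dist (g w0 z') (g w z') < ε := by
    intro z
    have h1 := Metric.continuousAt_iff'.1 (h z) (ε / 2) (by linarith)
    rw [nhds_prod_eq, eventually_prod_iff] at h1
    obtain ⟨pa, hpa, pb, hpb, hab⟩ := h1
    refine ⟨{z' | pa z'}, hpa, ?_⟩
    filter_upwards [hpb] with w hw z' hz'
    have e1 := hab hz' hw
    have e2 := hab hz' (hpb.self_of_nhds)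
    calc dist (g w0 z') (g w z') ≤ dist (g w0 z') (g w0 z) + dist (g w0 z) (g w z') :=
          dist_triangle _ _ _
      _ < ε / 2 + ε / 2 := by
          refine add_lt_add e2 ?_
          rw [dist_comm]; exact e1
      _ = ε := by ring
  choose V hV hVe using key
  obtain ⟨t, ht⟩ := CompactSpace.elim_nhds_subcover V hV
  have hall : ∀ᶠ w in 𝓝 w0, ∀ z ∈ t, ∀ z' ∈ V z, dist (g w0 z') (g w z') < ε :=
    (eventually_all_finset t).2 fun z _ => hVe z
  filter_upwards [hall] with w hw z'
  have : z' ∈ ⋃ x ∈ t, V x := by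
    rw [ht]; trivial
  obtain ⟨z, hz⟩ := mem_iUnion.1 this
  obtain ⟨hzt, hz'⟩ := mem_iUnion.1 hz
  exact hw z hzt z' hz'

/-- the bounded linear map `C(X, E →L W) → (E →L C(X, W))` -/
def evalDir (X : Type*) [TopologicalSpace X] [CompactSpace X]
    (E : Type*) [NormedAddCommGroup E] [NormedSpace ℝ E]
    (W : Type*) [NormedAddCommGroup W] [NormedSpace ℝ W] :
    C(X, E →L[ℝ] W) →L[ℝ] (E →L[ℝ] C(X, W)) :=
  LinearMap.mkContinuous₂
    (LinearMap.mk₂ ℝ (fun (f : C(X, E →L[ℝ] W)) (v : E) =>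
        (⟨fun z => f z v, f.continuous.clm_apply continuous_const⟩ : C(X, W)))
      (by intro f g v; ext z; simp)
      (by intro c f v; ext z; simp)
      (by intro f v w; ext z; simp)
      (by intro c f v; ext z; simp)) 1
    (by
      intro f v
      rw [one_mul]
      simp only [LinearMap.mk₂_apply]
      rw [ContinuousMap.norm_le _ (by positivity)]
      intro z
      exact ((f z).le_opNorm v).trans (by gcongr; exact f.norm_coe_le_norm z))

theorem evalDir_apply (f : C(X, E →L[ℝ] W)) (v : E) (z : X) : evalDir X E W f v z = f z v := rfl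

/-- differentiability of a family of continuous functions -/
theorem hasFDerivAt_toC {g : E → C(X, W)} {g' : E → C(X, E →L[ℝ] W)} {w0 : E}
    (hd : ∀ᶠ w in 𝓝 w0, ∀ z, HasFDerivAt (fun w => g w z) (g' w z) w)
    (hc : ContinuousAt g' w0) : HasFDerivAt g (evalDir X E W (g' w0)) w0 := by
  rw [hasFDerivAt_iff_isLittleO, Asymptotics.isLittleO_iff]
  intro ε hε
  have h1 : ∀ᶠ w in 𝓝 w0, dist (g' w) (g' w0) < ε := Metric.continuousAt_iff'.1 hc ε hε
  obtain ⟨δ, hδ, hball⟩ := Metric.eventually_nhds_iff_ball.1 (hd.and h1)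
  refine Metric.eventually_nhds_iff_ball.2 ⟨δ, hδ, fun w hw => ?_⟩
  rw [ContinuousMap.norm_le _ (by positivity)]
  intro z
  have h2 := (convex_ball w0 δ).norm_image_sub_le_of_norm_hasFDerivWithin_le'
    (f := fun w => g w z) (f' := fun w => g' w z) (C := ε) (φ := g' w0 z)
    (fun y hy => ((hball y hy).1 z).hasFDerivWithinAt)
    (fun y hy => by
      have h3 := (hball y hy).2
      have h4 : dist (g' y z) (g' w0 z) ≤ dist (g' y) (g' w0) :=
        ContinuousMap.dist_apply_le_dist z
      rw [dist_eq_norm] at h4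
      exact h4.trans h3.le)
    (mem_ball_self hδ) hw
  have h5 : (g w - g w0 - evalDir X E W (g' w0) (w - w0)) z =
      g w z - g w0 z - g' w0 z (w - w0) := rfl
  rw [h5]
  exact h2

omit [CompactSpace X] in
theorem JointAt.of_le {n m : ℕ∞ω} (hmn : m ≤ n) {F : X → E → W} {z0 : X} {w0 : E}
    (h : JointAt E' n F z0 w0) : JointAt E' m F z0 w0 := by
  obtain ⟨V, hV, U0, hU0, φ, H, hφ, hH, hF⟩ := h
  exact ⟨V, hV, U0, hU0, φ, H, hφ, fun z hz w hw => (hH z hz w hw).of_le hmn, hF⟩

omit [CompactSpace X] in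
/-- the partial derivative of a joint `C^(n+1)` function -/
theorem JointAt.fd {n : ℕ} {F : X → E → W} {z0 : X} {w0 : E}
    (h : JointAt E' (n + 1 : ℕ) F z0 w0) :
    JointAt E' (n : ℕ) (fun z w => fderiv ℝ (F z) w) z0 w0 ∧
      ∀ᶠ w in 𝓝 w0, ∀ᶠ z in 𝓝 z0, HasFDerivAt (F z) (fderiv ℝ (F z) w) w := by
  obtain ⟨V, hV, U0, hU0, φ, H, hφ, hH, hF⟩ := h
  obtain ⟨V', hVV, hVo, hzV⟩ := _root_.mem_nhds_iff.1 hV
  obtain ⟨U', hUU, hUo, hwU⟩ := _root_.mem_nhds_iff.1 hU0
  have hder : ∀ z ∈ V', ∀ w ∈ U', HasFDerivAt (F z)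
      ((fderiv ℝ H (φ z, w)).comp (ContinuousLinearMap.inr ℝ E' E)) w := by
    intro z hz w hw
    have h1 : HasFDerivAt H (fderiv ℝ H (φ z, w)) (φ z, w) :=
      ((hH z (hVV hz) w (hUU hw)).differentiableAt (by simp)).hasFDerivAt
    have h2 : HasFDerivAt (𝕜 := ℝ) (fun w : E => (φ z, w)) (ContinuousLinearMap.inr ℝ E' E) w :=
      (hasFDerivAt_prodMk_right (φ z) w)
    have h3 := h1.comp w h2
    refine h3.congr_of_eventuallyEq ?_
    filter_upwards [hUo.mem_nhds hw] with w' hw'
    exact hF z (hVV hz) w' (hUU hw')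
  refine ⟨⟨V', hVo.mem_nhds hzV, U', hUo.mem_nhds hwU, φ,
    fun p => (fderiv ℝ H p).comp (ContinuousLinearMap.inr ℝ E' E), hφ.mono hVV, ?_, ?_⟩, ?_⟩
  · intro z hz w hw
    have h1 : ContDiffAt ℝ (n : ℕ) (fderiv ℝ H) (φ z, w) :=
      (hH z (hVV hz) w (hUU hw)).fderiv_right (by exact_mod_cast le_rfl)
    exact h1.clm_comp contDiffAt_const
  · intro z hz w hw
    exact (hder z hz w hw).fderiv
  · filter_upwards [hUo.mem_nhds hwU] with w hw
    filter_upwards [hVo.mem_nhds hzV] with z hz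
    have := hder z hz w hw
    rwa [this.fderiv]

omit [NormedSpace ℝ E] [NormedSpace ℝ W] in
theorem eventually_forall_of_compact {p : E → X → Prop} {w0 : E}
    (h : ∀ z0 : X, ∃ V ∈ 𝓝 z0, ∀ᶠ w in 𝓝 w0, ∀ z ∈ V, p w z) : ∀ᶠ w in 𝓝 w0, ∀ z, p w z := by
  choose V hV hVe using h
  obtain ⟨t, ht⟩ := CompactSpace.elim_nhds_subcover V hV
  have hall : ∀ᶠ w in 𝓝 w0, ∀ z ∈ t, ∀ z' ∈ V z, p w z' :=
    (eventually_all_finset t).2 fun z _ => hVe z
  filter_upwards [hall] with w hw z'
  have : z' ∈ ⋃ x ∈ t, V x := by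
    rw [ht]; trivial
  obtain ⟨z, hz⟩ := mem_iUnion.1 this
  obtain ⟨hzt, hz'⟩ := mem_iUnion.1 hz
  exact hw z hzt z' hz'

/-- turn a function into a continuous function (junk value `0`) -/
def toC (f : X → W) : C(X, W) := by
  classical
  exact if h : Continuous f then ⟨f, h⟩ else 0

omit [CompactSpace X] [NormedSpace ℝ W] in
theorem toC_apply {f : X → W} (h : Continuous f) (z : X) : toC f z = f z := by
  unfold toC
  rw [dif_pos h]
  rfl

end

section Main

universe u

variable {X : Type*} [TopologicalSpace X] [CompactSpace X]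
variable {E' : Type*} [NormedAddCommGroup E'] [NormedSpace ℝ E']
variable {E : Type u} [NormedAddCommGroup E] [NormedSpace ℝ E]

/-- **smooth families of continuous functions**, finite order -/
theorem contDiffOn_toC_nat (n : ℕ) : ∀ {W : Type u} [NormedAddCommGroup W] [NormedSpace ℝ W]
    (F : X → E → W) (U : Set E), IsOpen U →
    (∀ z, ∀ w ∈ U, JointAt E' (n : ℕ) F z w) →
    ContDiffOn ℝ n (fun w => toC fun z => F z w) U := by
  induction n with
  | zero =>
    intro W _ _ F U hU hF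
    rw [CharP.cast_eq_zero, contDiffOn_zero]
    intro w0 hw0
    apply ContinuousAt.continuousWithinAt
    have hz : ∀ w ∈ U, Continuous fun z => F z w := by
      intro w hw
      rw [continuous_iff_continuousAt]
      intro z
      have h1 := (hF z w hw).continuousAt
      exact ContinuousAt.comp (f := fun z : X => (z, w)) h1 (by fun_prop)
    apply continuousAt_toC
    intro z
    refine ((hF z w0 hw0).continuousAt).congr ?_
    filter_upwards [prod_mem_nhds univ_mem (hU.mem_nhds hw0)] with p hp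
    rw [toC_apply (hz p.2 hp.2)]
  | succ n ih =>
    intro W _ _ F U hU hF
    have hcont : ∀ w ∈ U, Continuous fun z => F z w := by
      intro w hw
      rw [continuous_iff_continuousAt]
      intro z
      have h1 := ((hF z w hw).of_le (m := 0) (by simp)).continuousAt
      exact ContinuousAt.comp (f := fun z : X => (z, w)) h1 (by fun_prop)
    have hcont' : ∀ w ∈ U, Continuous fun z => fderiv ℝ (F z) w := by
      intro w hw
      rw [continuous_iff_continuousAt]
      intro z
      have h1 := ((hF z w hw).fd.1.of_le (m := 0) (by simp)).continuousAt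
      exact ContinuousAt.comp (f := fun z : X => (z, w)) h1 (by fun_prop)
    have hg' := ih (fun z w => fderiv ℝ (F z) w) U hU (fun z w hw => (hF z w hw).fd.1)
    have hder : ∀ w ∈ U, HasFDerivAt (fun w => toC fun z => F z w)
        (evalDir X E W (toC fun z => fderiv ℝ (F z) w)) w := by
      intro w0 hw0
      refine hasFDerivAt_toC (g' := fun w => toC fun z => fderiv ℝ (F z) w) ?_ ?_
      · filter_upwards [hU.mem_nhds hw0] with w hw z
        rw [toC_apply (hcont' w hw)]
        have h1 : HasFDerivAt (F z) (fderiv ℝ (F z) w) w :=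
          (hF z w hw).fd.2.self_of_nhds.self_of_nhds
        refine h1.congr_of_eventuallyEq ?_
        filter_upwards [hU.mem_nhds hw] with w' hw'
        rw [toC_apply (hcont w' hw')]
      · exact hg'.continuousOn.continuousAt (hU.mem_nhds hw0)
    have : ((n + 1 : ℕ) : ℕ∞ω) = (n : ℕ∞ω) + 1 := by push_cast; rfl
    rw [this, contDiffOn_succ_iff_fderiv_of_isOpen hU]
    refine ⟨fun w hw => (hder w hw).differentiableAt.differentiableWithinAt, by simp, ?_⟩
    refine ContDiffOn.congr (f := fun w => evalDir X E W (toC fun z => fderiv ℝ (F z) w)) ?_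
      fun w hw => (hder w hw).fderiv
    exact (evalDir X E W).contDiff.comp_contDiffOn hg'

/-- **smooth families of continuous functions** -/
theorem contDiffOn_toC {W : Type u} [NormedAddCommGroup W] [NormedSpace ℝ W]
    {F : X → E → W} {U : Set E} (hU : IsOpen U) (hF : ∀ z, ∀ w ∈ U, JointAt E' ∞ F z w) :
    ContDiffOn ℝ ∞ (fun w => toC fun z => F z w) U := by
  rw [contDiffOn_infty]
  intro n
  exact contDiffOn_toC_nat n F U hU fun z w hw => (hF z w hw).of_le (by exact_mod_cast le_top)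

/-- a continuous linear functional applied to a smooth family is smooth -/
theorem contDiffOn_functional {𝕜 : Type*} [RCLike 𝕜] {W : Type u} [NormedAddCommGroup W]
    [NormedSpace ℝ W] [NormedSpace 𝕜 W] {Z : Type*} [NormedAddCommGroup Z] [NormedSpace 𝕜 Z]
    [NormedSpace ℝ Z] [IsScalarTower ℝ 𝕜 W] [IsScalarTower ℝ 𝕜 Z]
    (ℓ : C(X, W) →L[𝕜] Z)
    {F : X → E → W} {U : Set E} (hU : IsOpen U) (hF : ∀ z, ∀ w ∈ U, JointAt E' ∞ F z w) :
    ContDiffOn ℝ ∞ (fun w => ℓ (toC fun z => F z w)) U := by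
  have h := contDiffOn_toC hU hF
  exact (ℓ.restrictScalars ℝ).contDiff.comp_contDiffOn h

end Main

end Vale.Agent.P267.H439
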