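import Mathlib
import Vale.Agent.P116.H906.Pomp

/-!
# P267, package DIV-LOC: local division lemma for (0,2)-forms

`g` smooth with compact support near a point of the zero set of a holomorphic `h` in two
variables is `∂̄₂ u + h w` (suitable coordinates) with `u, w` smooth of compact support.
-/

open Filter Topology MeasureTheory Set Metric
open scoped ContDiff Real

namespace Vale.Agent.P267.H439

noncomputable section

/-- `∂̄ f (z) (v)`: the conjugate-linear part of the derivative -/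
def dbv {E : Type*} [NormedAddCommGroup E] [NormedSpace ℂ E] (f : E → ℂ) (z v : E) : ℂ :=
  (1 / 2 : ℂ) * (fderiv ℝ f z v + Complex.I * fderiv ℝ f z (Complex.I • v))

/-- the kernel `1/(πζ)` -/
def ker1 (ζ : ℂ) : ℂ := ((π : ℂ) * ζ)⁻¹

theorem locallyIntegrable_ker1 : LocallyIntegrable ker1 := by
  refine locallyIntegrable_of_norm_le_rpow (C := π⁻¹) (α := 1) ?_ ?_ ?_ ?_
  · rw [Complex.finrank_real_complex]; norm_num
  · rw [Complex.finrank_real_complex]; norm_num
  · refine Eventually.of_forall fun x => ?_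
    rw [ker1, norm_inv, norm_mul, Complex.norm_real, Real.norm_eq_abs, abs_of_pos Real.pi_pos,
      mul_inv, Real.rpow_neg_one]
  · unfold ker1
    exact (by fun_prop : Measurable fun ζ : ℂ => ((π : ℂ) * ζ)⁻¹).aestronglyMeasurable

variable {P : Type*} [NormedAddCommGroup P] [NormedSpace ℂ P]

/-- Cauchy transform in the second variable -/
def cau2 (g : P × ℂ → ℂ) (z : P × ℂ) : ℂ :=
  convolution ker1 (fun x => g (z.1, x)) (ContinuousLinearMap.mul ℝ ℂ) volume z.2

theorem cau2_contDiff {g : P × ℂ → ℂ} (hg : ContDiff ℝ ∞ g) {K : Set ℂ} (hK : IsCompact K)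
    (hgs : ∀ p x, x ∉ K → g (p, x) = 0) : ContDiff ℝ ∞ (cau2 g) := by
  have h := contDiffOn_convolution_right_with_param (𝕜 := ℝ) (n := ⊤) (μ := (volume : Measure ℂ))
    (ContinuousLinearMap.mul ℝ ℂ) (f := ker1) (g := fun (p : P) (x : ℂ) => g (p, x))
    (s := univ) (k := K) isOpen_univ hK (fun p x _ hx => hgs p x hx) locallyIntegrable_ker1
    (by
      rw [contDiffOn_univ.symm] at hg
      rw [univ_prod_univ]
      exact hg)
  rw [univ_prod_univ, contDiffOn_univ] at h
  exact h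

omit [NormedAddCommGroup P] [NormedSpace ℂ P] in
theorem cau2_zero {g : P × ℂ → ℂ} {p : P} (h : ∀ x, g (p, x) = 0) (z : ℂ) :
    cau2 g (p, z) = 0 := by
  simp [cau2, convolution_def, h]

theorem hasFDerivAt_cau2 {g : P × ℂ → ℂ} (hg : ContDiff ℝ ∞ g) {K : Set ℂ} (hK : IsCompact K)
    (hgs : ∀ p x, x ∉ K → g (p, x) = 0) (q : P × ℂ) :
    HasFDerivAt (cau2 g) (convolution ker1 (fun x => fderiv ℝ g (q.1, x))
      ((ContinuousLinearMap.mul ℝ ℂ).precompR (P × ℂ)) volume q.2) q := by
  have h := hasFDerivAt_convolution_right_with_param (𝕜 := ℝ) (μ := (volume : Measure ℂ))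
    (ContinuousLinearMap.mul ℝ ℂ) (f := ker1) (g := fun (p : P) (x : ℂ) => g (p, x))
    (s := univ) (k := K) isOpen_univ hK (fun p x _ hx => hgs p x hx) locallyIntegrable_ker1
    (by
      rw [univ_prod_univ]
      exact ((hg.of_le (by exact_mod_cast le_top)).contDiffOn : ContDiffOn ℝ 1 g univ)) q (mem_univ _)
  exact h

theorem fderiv_cau2_apply {g : P × ℂ → ℂ} (hg : ContDiff ℝ ∞ g) {K : Set ℂ} (hK : IsCompact K)
    (hgs : ∀ p x, x ∉ K → g (p, x) = 0) (q v : P × ℂ) :
    fderiv ℝ (cau2 g) q v = ∫ t : ℂ, ker1 t * fderiv ℝ g (q.1, q.2 - t) v := by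
  rw [(hasFDerivAt_cau2 hg hK hgs q).fderiv, convolution_def]
  have hcont : Continuous fun x => fderiv ℝ g (q.1, x) := by
    have := hg.continuous_fderiv (by simp)
    exact this.comp (by fun_prop)
  have hcs : HasCompactSupport fun x => fderiv ℝ g (q.1, x) := by
    refine HasCompactSupport.intro hK fun x hx => ?_
    refine (hasFDerivAt_zero_of_eventually_const 0 ?_).fderiv
    have M2 : Kᶜ ∈ 𝓝 x := hK.isClosed.isOpen_compl.mem_nhds hx
    rw [nhds_prod_eq]
    filter_upwards [prod_mem_prod univ_mem M2]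
    rintro ⟨p, y⟩ ⟨_, hy⟩
    exact hgs p y hy
  have hint : Integrable (fun t : ℂ => ((ContinuousLinearMap.mul ℝ ℂ).precompR (P × ℂ)) (ker1 t)
      (fderiv ℝ g (q.1, q.2 - t))) := by
    have := hcs.convolutionExists_right ((ContinuousLinearMap.mul ℝ ℂ).precompR (P × ℂ))
      (μ := (volume : Measure ℂ)) locallyIntegrable_ker1 hcont q.2
    exact this
  rw [ContinuousLinearMap.integral_apply hint]
  rfl

/-- `∂̄` of the Cauchy transform -/
theorem dbv_cau2 {g : P × ℂ → ℂ} (hg : ContDiff ℝ ∞ g) {K : Set ℂ} (hK : IsCompact K)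
    (hgs : ∀ p x, x ∉ K → g (p, x) = 0) (q : P × ℂ) :
    dbv (cau2 g) q (0, 1) = g q := by
  have hcont : ∀ v, Continuous fun x => fderiv ℝ g (q.1, q.2 - x) v := by
    intro v
    have := hg.continuous_fderiv (by simp)
    have h2 : Continuous fun x => fderiv ℝ g (q.1, q.2 - x) := this.comp (by fun_prop)
    exact h2.clm_apply continuous_const
  have hz : ∀ x, q.2 - x ∉ K → fderiv ℝ g (q.1, q.2 - x) = 0 := by
    intro x hx
    refine (hasFDerivAt_zero_of_eventually_const 0 ?_).fderiv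
    have M2 : Kᶜ ∈ 𝓝 (q.2 - x) := hK.isClosed.isOpen_compl.mem_nhds hx
    rw [nhds_prod_eq]
    filter_upwards [prod_mem_prod univ_mem M2]
    rintro ⟨p, y⟩ ⟨_, hy⟩
    exact hgs p y hy
  have hcs : ∀ v, HasCompactSupport fun x => fderiv ℝ g (q.1, q.2 - x) v := by
    intro v
    refine HasCompactSupport.intro (K := (fun x => q.2 - x) '' K)
      (hK.image (by fun_prop)) fun x hx => ?_
    rw [hz x ?_]; · rfl
    intro h
    exact hx ⟨q.2 - x, h, by simp⟩
  have hint : ∀ v, Integrable fun t : ℂ => ker1 t * fderiv ℝ g (q.1, q.2 - t) v := by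
    intro v
    have := locallyIntegrable_ker1.integrable_smul_left_of_hasCompactSupport (hcont v) (hcs v)
    refine this.congr (Eventually.of_forall fun w => ?_)
    simp [mul_comm]
  unfold dbv
  rw [fderiv_cau2_apply hg hK hgs, fderiv_cau2_apply hg hK hgs, ← integral_const_mul,
    ← integral_add (hint _) ((hint _).const_mul _), ← integral_const_mul]
  set ψ : ℂ → ℂ := fun t => g (q.1, q.2 - t) with hψ
  have hψc : ContDiff ℝ 1 ψ := by
    have : ContDiff ℝ ∞ ψ := hg.comp (by fun_prop)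
    exact this.of_le (by exact_mod_cast le_top)
  have hψs : HasCompactSupport ψ := by
    refine HasCompactSupport.intro (K := (fun x => q.2 - x) '' K)
      (hK.image (by fun_prop)) fun x hx => ?_
    refine hgs _ _ ?_
    intro h
    exact hx ⟨q.2 - x, h, by simp⟩
  have hder : ∀ t v, fderiv ℝ ψ t v = - fderiv ℝ g (q.1, q.2 - t) (0, v) := by
    intro t v
    have h1 : HasFDerivAt (fun t : ℂ => (q.1, q.2 - t))
        ((0 : ℂ →L[ℝ] P).prod (-(ContinuousLinearMap.id ℝ ℂ))) t := by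
      refine (hasFDerivAt_const _ _).prodMk ?_
      simpa using ((hasFDerivAt_id (𝕜 := ℝ) t).const_sub q.2)
    have h2 := ((hg.differentiable (by simp)) (q.1, q.2 - t)).hasFDerivAt.comp t h1
    have h3 : fderiv ℝ ψ t = (fderiv ℝ g (q.1, q.2 - t)).comp
      ((0 : ℂ →L[ℝ] P).prod (-(ContinuousLinearMap.id ℝ ℂ))) := h2.fderiv
    rw [h3]
    simp only [ContinuousLinearMap.comp_apply, ContinuousLinearMap.prod_apply,
      zero_apply, neg_apply, ContinuousLinearMap.id_apply]
    rw [← map_neg]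
    simp
  have hp := Vale.Agent.P116.H906.Pomp.pompeiu hψc hψs
  have hq : ψ 0 = g q := by simp [hψ]
  rw [hq] at hp
  have hpi : (π : ℂ) ≠ 0 := by exact_mod_cast Real.pi_ne_zero
  have h5 : ∀ t : ℂ, (1 / 2 : ℂ) * (ker1 t * fderiv ℝ g (q.1, q.2 - t) (0, 1) +
      Complex.I * (ker1 t * fderiv ℝ g (q.1, q.2 - t) (Complex.I • (0, 1)))) =
      (-(1 / (2 * π)) : ℂ) * (t⁻¹ * Vale.Agent.P116.H906.Pomp.db ψ t) := by
    intro t
    have e1 : (Complex.I • ((0 : P), (1 : ℂ))) = (0, Complex.I) := by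
      ext <;> simp
    rw [e1, Vale.Agent.P116.H906.Pomp.db, hder, hder, ker1, mul_inv]
    field_simp
    ring
  simp_rw [h5]
  rw [integral_const_mul, hp]
  field_simp

theorem dbv_mul {E : Type*} [NormedAddCommGroup E] [NormedSpace ℂ E] {f g : E → ℂ} {z : E}
    (hf : DifferentiableAt ℝ f z) (hg : DifferentiableAt ℝ g z) (v : E) :
    dbv (fun x => f x * g x) z v = f z * dbv g z v + dbv f z v * g z := by
  unfold dbv
  have h : fderiv ℝ (fun x => f x * g x) z = f z • fderiv ℝ g z + g z • fderiv ℝ f z :=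
    (hf.hasFDerivAt.mul hg.hasFDerivAt).fderiv
  rw [h]
  simp only [add_apply, smul_apply, smul_eq_mul]
  ring

/-- core of the division lemma in a product of discs -/
theorem div_core {g h : P × ℂ → ℂ} {K : Set P} {r ε : ℝ} (hr : 0 < r) (hε : 0 < ε)
    (hK : IsClosed K) (hg : ContDiff ℝ ∞ g) (hgs : tsupport g ⊆ K ×ˢ closedBall 0 r)
    (hh : ∀ z ∈ K ×ˢ (closedBall 0 (r + ε) \ ball (0 : ℂ) r), ContDiffAt ℝ ∞ h z ∧ h z ≠ 0) :
    ∃ u w : P × ℂ → ℂ, ContDiff ℝ ∞ u ∧ ContDiff ℝ ∞ w ∧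
      tsupport u ⊆ K ×ˢ closedBall 0 (r + ε) ∧ tsupport w ⊆ K ×ˢ closedBall 0 (r + ε) ∧
      ∀ z, g z = dbv u z (0, 1) + h z * w z := by
  have hgK : ∀ p x, x ∉ closedBall (0 : ℂ) r → g (p, x) = 0 := by
    intro p x hx
    by_contra hne
    exact hx (hgs (subset_tsupport _ hne)).2
  have hgK1 : ∀ p ∉ K, ∀ x, g (p, x) = 0 := by
    intro p hp x
    by_contra hne
    exact hp (hgs (subset_tsupport _ hne)).1
  set c : P × ℂ → ℂ := cau2 g with hc
  have hcc : ContDiff ℝ ∞ c := cau2_contDiff hg (isCompact_closedBall 0 r) hgK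
  have hcz : ∀ p ∉ K, ∀ x, c (p, x) = 0 := fun p hp x => cau2_zero (hgK1 p hp) x
  let B : ContDiffBump (0 : ℂ) := ⟨r, r + ε, hr, by linarith⟩
  set ψ : P × ℂ → ℂ := fun z => ((B z.2 : ℝ) : ℂ) with hψ
  have hψc : ContDiff ℝ ∞ ψ := by
    have h1 : ContDiff ℝ ∞ (fun x : ℂ => B x) := B.contDiff
    exact Complex.ofRealCLM.contDiff.comp (h1.comp contDiff_snd)
  set F : P × ℂ → ℂ := fun z => dbv ψ z (0, 1) * c z with hF
  have hψ1 : ContDiff ℝ ∞ fun z => dbv ψ z (0, 1) := by
    unfold dbv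
    have h1 : ContDiff ℝ ∞ (fderiv ℝ ψ) := hψc.fderiv_right (by simp)
    exact contDiff_const.mul ((h1.clm_apply contDiff_const).add
      (contDiff_const.mul (h1.clm_apply contDiff_const)))
  have hFc : ContDiff ℝ ∞ F := hψ1.mul hcc
  have hψloc : ∀ z : P × ℂ, z.2 ∉ closedBall (0 : ℂ) (r + ε) \ ball (0 : ℂ) r →
      dbv ψ z (0, 1) = 0 := by
    intro z hz
    have hcases : z.2 ∈ ball (0 : ℂ) r ∨ z.2 ∉ closedBall (0 : ℂ) (r + ε) := by
      by_contra hcon
      push Not at hcon
      exact hz ⟨hcon.2, hcon.1⟩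
    have hev : (∀ᶠ y in 𝓝 z, ψ y = 1) ∨ (∀ᶠ y in 𝓝 z, ψ y = 0) := by
      rcases hcases with h1 | h1
      · left
        have : ∀ᶠ y in 𝓝 z, y.2 ∈ ball (0 : ℂ) r :=
          continuous_snd.continuousAt.eventually (isOpen_ball.mem_nhds h1)
        filter_upwards [this] with y hy
        have : B y.2 = 1 := B.one_of_mem_closedBall (ball_subset_closedBall hy)
        simp [hψ, this]
      · right
        have : ∀ᶠ y in 𝓝 z, y.2 ∈ (closedBall (0 : ℂ) (r + ε))ᶜ :=
          continuous_snd.continuousAt.eventually (isClosed_closedBall.isOpen_compl.mem_nhds h1)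
        filter_upwards [this] with y hy
        have : B y.2 = 0 := by
          apply B.zero_of_le_dist
          have : ¬ dist y.2 0 ≤ r + ε := hy
          exact (not_le.1 this).le
        simp [hψ, this]
    have hfd : fderiv ℝ ψ z = 0 := by
      rcases hev with h1 | h1
      · exact (hasFDerivAt_zero_of_eventually_const 1 h1).fderiv
      · exact (hasFDerivAt_zero_of_eventually_const 0 h1).fderiv
    simp [dbv, hfd]
  have hFs : ∀ z, z ∉ K ×ˢ (closedBall 0 (r + ε) \ ball (0 : ℂ) r) → F z = 0 := by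
    intro z hz
    by_cases h1 : z.1 ∈ K
    · have h2 : z.2 ∉ closedBall (0 : ℂ) (r + ε) \ ball (0 : ℂ) r := fun h2 => hz ⟨h1, h2⟩
      simp [hF, hψloc z h2]
    · have : c z = 0 := hcz z.1 h1 z.2
      simp [hF, this]
  have hSclosed : IsClosed (K ×ˢ (closedBall 0 (r + ε) \ ball (0 : ℂ) r)) :=
    hK.prod (isClosed_closedBall.sdiff isOpen_ball)
  set u : P × ℂ → ℂ := fun z => ψ z * c z with hu
  set w : P × ℂ → ℂ := fun z => -(F z / h z) with hw
  have huc : ContDiff ℝ ∞ u := hψc.mul hcc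
  have hwc : ContDiff ℝ ∞ w := by
    rw [contDiff_iff_contDiffAt]
    intro z
    by_cases hz : z ∈ K ×ˢ (closedBall 0 (r + ε) \ ball (0 : ℂ) r)
    · obtain ⟨h1, h2⟩ := hh z hz
      have h3 : ContDiffAt ℝ ∞ (fun y => (h y)⁻¹) z := h1.inv h2
      have h4 : w = fun y => -(F y * (h y)⁻¹) := by
        funext y; simp [hw, div_eq_mul_inv]
      rw [h4]
      exact ((hFc.contDiffAt).mul h3).neg
    · have hev : ∀ᶠ y in 𝓝 z, w y = 0 := by
        filter_upwards [hSclosed.isOpen_compl.mem_nhds hz] with y hy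
        simp [hw, hFs y hy]
      exact (contDiffAt_const (c := (0 : ℂ))).congr_of_eventuallyEq hev
  refine ⟨u, w, huc, hwc, ?_, ?_, ?_⟩
  · refine closure_minimal ?_ (hK.prod isClosed_closedBall)
    intro z hz
    rw [Function.mem_support] at hz
    refine ⟨?_, ?_⟩
    · by_contra h1
      exact hz (by simp [hu, show c z = 0 from hcz z.1 h1 z.2])
    · by_contra h1
      refine hz ?_
      have : B z.2 = 0 := by
        apply B.zero_of_le_dist
        have : ¬ dist z.2 0 ≤ r + ε := h1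
        exact (not_le.1 this).le
      simp [hu, hψ, this]
  · refine closure_minimal ?_ (hK.prod isClosed_closedBall)
    intro z hz
    rw [Function.mem_support] at hz
    have : z ∈ K ×ˢ (closedBall 0 (r + ε) \ ball (0 : ℂ) r) := by
      by_contra h1
      exact hz (by simp [hw, hFs z h1])
    exact ⟨this.1, this.2.1⟩
  · intro z
    have h1 : dbv u z (0, 1) = ψ z * dbv c z (0, 1) + dbv ψ z (0, 1) * c z :=
      dbv_mul (hψc.differentiable (by simp) z) (hcc.differentiable (by simp) z) _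
    have h2 : dbv c z (0, 1) = g z := dbv_cau2 hg (isCompact_closedBall 0 r) hgK z
    have h3 : ψ z * g z = g z := by
      by_cases hz : g z = 0
      · simp [hz]
      · have : z.2 ∈ closedBall (0 : ℂ) r := (hgs (subset_tsupport _ hz)).2
        have : B z.2 = 1 := B.one_of_mem_closedBall this
        simp [hψ, this]
    have h4 : h z * w z = - F z := by
      by_cases hz : z ∈ K ×ˢ (closedBall 0 (r + ε) \ ball (0 : ℂ) r)
      · have := (hh z hz).2
        simp only [hw]
        field_simp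
      · simp [hw, hFs z hz]
    rw [h1, h2, h3, h4]
    simp [hF]

end

end Vale.Agent.P267.H439
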