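import Vale.Agent.P267.H399.Calc2

/-!
# P267: forms supported in one chart (in helper399's language)

`of0 κ e g`, `of1 κ e g`, `of2 κ e g`: the `K^κ ⊗ V`-valued form which has the components `g` in
the chart `e` and vanishes off the chart.
-/

set_option linter.unusedSectionVars false
set_option linter.unusedVariables false

open scoped Manifold ContDiff ComplexConjugate Matrix
open Set Filter Topology

noncomputable section

namespace Vale.Agent.P267.H439

open FL

variable {X : Type*} [TopologicalSpace X] [ChartedSpace C2 X]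
variable {V : Type*} [NormedAddCommGroup V] [NormedSpace ℂ V]

open Classical in
/-- the `K^κ ⊗ V`-valued function with component `g` in the chart `e` -/
def of0 (κ : ℤ) (e : Ch X) (g : C2 → V) (x : X) : V :=
  if x ∈ e.source then (jac e x).det ^ (-κ) • g (e x) else 0

open Classical in
/-- the `K^κ ⊗ V`-valued `(0,1)`-form with components `g` in the chart `e` -/
def of1 (κ : ℤ) (e : Ch X) (g : C2 → Fin 2 → V) (x : X) (p : Fin 2) : V :=
  if x ∈ e.source then (jac e x).det ^ (-κ) • ∑ i, conj ((jac e x)⁻¹ i p) • g (e x) i else 0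

open Classical in
/-- the `K^κ ⊗ V`-valued `(0,2)`-form with component `g` in the chart `e` -/
def of2 (κ : ℤ) (e : Ch X) (g : C2 → V) (x : X) : V :=
  if x ∈ e.source then (jac e x).det ^ (-κ) • (conj (jac e x).det)⁻¹ • g (e x) else 0

section basic

variable {κ : ℤ} {e : Ch X}

theorem of0_source {x : X} (hx : x ∈ e.source) (g : C2 → V) :
    of0 κ e g x = (jac e x).det ^ (-κ) • g (e x) := if_pos hx

theorem of1_source {x : X} (hx : x ∈ e.source) (g : C2 → Fin 2 → V) (p : Fin 2) :
    of1 κ e g x p = (jac e x).det ^ (-κ) • ∑ i, conj ((jac e x)⁻¹ i p) • g (e x) i := if_pos hx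

theorem of2_source {x : X} (hx : x ∈ e.source) (g : C2 → V) :
    of2 κ e g x = (jac e x).det ^ (-κ) • (conj (jac e x).det)⁻¹ • g (e x) := if_pos hx

theorem of0_off {x : X} (hx : x ∉ e.source) (g : C2 → V) : of0 κ e g x = 0 := if_neg hx

theorem of1_off {x : X} (hx : x ∉ e.source) (g : C2 → Fin 2 → V) : of1 κ e g x = 0 := by
  funext p
  exact if_neg hx

theorem of2_off {x : X} (hx : x ∉ e.source) (g : C2 → V) : of2 κ e g x = 0 := if_neg hx

theorem of0_zero_of {x : X} {g : C2 → V} (h : x ∈ e.source → g (e x) = 0) : of0 κ e g x = 0 := by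
  by_cases hx : x ∈ e.source
  · rw [of0_source hx, h hx, smul_zero]
  · exact of0_off hx g

theorem of1_zero_of {x : X} {g : C2 → Fin 2 → V} (h : x ∈ e.source → g (e x) = 0) :
    of1 κ e g x = 0 := by
  by_cases hx : x ∈ e.source
  · funext p
    rw [of1_source hx, h hx]
    simp
  · exact of1_off hx g

theorem of2_zero_of {x : X} {g : C2 → V} (h : x ∈ e.source → g (e x) = 0) : of2 κ e g x = 0 := by
  by_cases hx : x ∈ e.source
  · rw [of2_source hx, h hx, smul_zero, smul_zero]
  · exact of2_off hx g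

end basic

section atlas

variable [IsManifold 𝓘(ℂ, C2) ω X] {κ : ℤ} {e : Ch X}

theorem loc0_of0 (he : e ∈ atlas C2 X) {z : C2} (hz : z ∈ e.target) (g : C2 → V) :
    loc0 κ e (of0 κ e g) z = g z := by
  have hx := e.map_target hz
  have hd := jac_det_ne_zero he hx
  rw [loc0, of0_source hx, smul_smul, ← zpow_add₀ hd, e.right_inv hz]
  simp

theorem loc2_of2 (he : e ∈ atlas C2 X) {z : C2} (hz : z ∈ e.target) (g : C2 → V) :
    loc2 κ e (of2 κ e g) z = g z := by
  have hx := e.map_target hz
  have hd := jac_det_ne_zero he hx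
  have hc : conj (jac e (e.symm z)).det ≠ 0 := by simpa using hd
  rw [loc2, of2_source hx, e.right_inv hz]
  simp only [smul_smul]
  have : (jac e (e.symm z)).det ^ κ * ((starRingEnd ℂ) (jac e (e.symm z)).det *
      ((jac e (e.symm z)).det ^ (-κ) * ((starRingEnd ℂ) (jac e (e.symm z)).det)⁻¹)) = 1 := by
    rw [zpow_neg]
    have h1 : (jac e (e.symm z)).det ^ κ ≠ 0 := zpow_ne_zero _ hd
    field_simp
  rw [this, one_smul]

theorem loc1_of1 (he : e ∈ atlas C2 X) {z : C2} (hz : z ∈ e.target) (g : C2 → Fin 2 → V)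
    (i : Fin 2) : loc1 κ e (of1 κ e g) z i = g z i := by
  have hx := e.map_target hz
  have hd := jac_det_ne_zero he hx
  have hu : IsUnit (jac e (e.symm z)).det := isUnit_iff_ne_zero.2 hd
  have hmul : (jac e (e.symm z))⁻¹ * jac e (e.symm z) = 1 := Matrix.nonsing_inv_mul _ hu
  rw [loc1]
  simp only [of1_source hx, e.right_inv hz]
  have h1 : ∀ p, conj (jac e (e.symm z) p i) • (jac e (e.symm z)).det ^ (-κ) •
      ∑ j, conj ((jac e (e.symm z))⁻¹ j p) • g z j =
      (jac e (e.symm z)).det ^ (-κ) • ∑ j, (conj ((jac e (e.symm z))⁻¹ j p) *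
        conj (jac e (e.symm z) p i)) • g z j := by
    intro p
    rw [smul_comm]
    congr 1
    rw [Finset.smul_sum]
    refine Finset.sum_congr rfl fun j _ => ?_
    rw [smul_smul, mul_comm]
  simp only [h1]
  rw [← Finset.smul_sum, smul_smul, ← zpow_add₀ hd, Finset.sum_comm]
  have h2 : ∀ j, ∑ p, (conj ((jac e (e.symm z))⁻¹ j p) * conj (jac e (e.symm z) p i)) • g z j =
      ((1 : Matrix (Fin 2) (Fin 2) ℂ) j i) • g z j := by
    intro j
    rw [← Finset.sum_smul]
    congr 1
    have h3 : ((jac e (e.symm z))⁻¹ * jac e (e.symm z)) j i = (1 : Matrix (Fin 2) (Fin 2) ℂ) j i := by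
      rw [hmul]
    rw [Matrix.mul_apply] at h3
    have h4 := congrArg (starRingEnd ℂ) h3
    rw [map_sum] at h4
    simp only [map_mul] at h4
    rw [h4]
    by_cases hji : j = i
    · subst hji; simp
    · simp [Matrix.one_apply_ne hji]
  simp only [h2]
  simp [Matrix.one_apply]

/-- injectivity of the chart expression -/
theorem loc0_inj (he : e ∈ atlas C2 X) {x : X} (hx : x ∈ e.source) {s t : X → V}
    (h : loc0 κ e s (e x) = loc0 κ e t (e x)) : s x = t x := by
  have hd := jac_det_ne_zero he hx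
  rw [loc0_source hx, loc0_source hx] at h
  exact smul_right_injective V (zpow_ne_zero κ hd) h

theorem loc2_inj (he : e ∈ atlas C2 X) {x : X} (hx : x ∈ e.source) {s t : X → V}
    (h : loc2 κ e s (e x) = loc2 κ e t (e x)) : s x = t x := by
  have hd := jac_det_ne_zero he hx
  have hc : conj (jac e x).det ≠ 0 := by simpa using hd
  rw [loc2_source hx, loc2_source hx] at h
  exact smul_right_injective V hc (smul_right_injective V (zpow_ne_zero κ hd) h)

theorem loc1_inj (he : e ∈ atlas C2 X) {x : X} (hx : x ∈ e.source) {s t : X → Fin 2 → V}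
    (h : ∀ i, loc1 κ e s (e x) i = loc1 κ e t (e x) i) : s x = t x := by
  have hd := jac_det_ne_zero he hx
  have hu : IsUnit (jac e x).det := isUnit_iff_ne_zero.2 hd
  have hmul : jac e x * (jac e x)⁻¹ = 1 := Matrix.mul_nonsing_inv _ hu
  have h1 : ∀ i, ∑ p, conj (jac e x p i) • s x p = ∑ p, conj (jac e x p i) • t x p := by
    intro i
    have h2 := h i
    rw [loc1_source hx, loc1_source hx] at h2
    exact smul_right_injective V (zpow_ne_zero κ hd) h2
  funext q
  have key : ∀ r : Fin 2 → V, r q = ∑ i, conj ((jac e x)⁻¹ i q) • ∑ p, conj (jac e x p i) • r p := by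
    intro r
    simp only [Finset.smul_sum, smul_smul]
    rw [Finset.sum_comm]
    have h2 : ∀ p, ∑ i, (conj ((jac e x)⁻¹ i q) * conj (jac e x p i)) • r p =
        ((1 : Matrix (Fin 2) (Fin 2) ℂ) p q) • r p := by
      intro p
      rw [← Finset.sum_smul]
      congr 1
      have h3 : (jac e x * (jac e x)⁻¹) p q = (1 : Matrix (Fin 2) (Fin 2) ℂ) p q := by rw [hmul]
      rw [Matrix.mul_apply] at h3
      have h4 := congrArg (starRingEnd ℂ) h3
      rw [map_sum] at h4
      simp only [map_mul] at h4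
      simp only [mul_comm (conj ((jac e x)⁻¹ _ q))]
      rw [h4]
      by_cases hji : p = q
      · subst hji; simp
      · simp [Matrix.one_apply_ne hji]
    simp only [h2]
    simp [Matrix.one_apply]
  rw [key (s x), key (t x)]
  exact Finset.sum_congr rfl fun i _ => by rw [h1 i]

theorem of0_loc0 (he : e ∈ atlas C2 X) {x : X} (hx : x ∈ e.source) (s : X → V) :
    of0 κ e (loc0 κ e s) x = s x :=
  loc0_inj (κ := κ) he hx (loc0_of0 he (e.map_source hx) _)

theorem of1_loc1 (he : e ∈ atlas C2 X) {x : X} (hx : x ∈ e.source) (s : X → Fin 2 → V) :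
    of1 κ e (loc1 κ e s) x = s x :=
  loc1_inj (κ := κ) he hx fun i => loc1_of1 he (e.map_source hx) _ i

theorem of2_loc2 (he : e ∈ atlas C2 X) {x : X} (hx : x ∈ e.source) (s : X → V) :
    of2 κ e (loc2 κ e s) x = s x :=
  loc2_inj (κ := κ) he hx (loc2_of2 he (e.map_source hx) _)

/-! ### supports and regularity -/

section supp

variable [T2Space X] {K : Set C2}

theorem isCompact_symm_image (hK : IsCompact K) (hKe : K ⊆ e.target) : IsCompact (e.symm '' K) :=
  hK.image_of_continuousOn (e.continuousOn_symm.mono hKe)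

theorem symm_image_subset (hKe : K ⊆ e.target) : e.symm '' K ⊆ e.source := by
  rintro _ ⟨z, hz, rfl⟩
  exact e.map_target (hKe hz)

theorem notMem_symm_image {x : X} (hx : x ∉ e.symm '' K) (hxs : x ∈ e.source) : e x ∉ K :=
  fun h => hx ⟨e x, h, e.left_inv hxs⟩

theorem tsupport_subset_symm {W : Type*} [Zero W] {f : X → W} (hK : IsCompact K)
    (hKe : K ⊆ e.target) (h : ∀ x ∉ e.symm '' K, f x = 0) :
    HasCompactSupport f ∧ tsupport f ⊆ e.symm '' K := by
  have h1 := isCompact_symm_image hK hKe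
  refine ⟨HasCompactSupport.intro h1 h, ?_⟩
  refine closure_minimal ?_ h1.isClosed
  intro x hx
  by_contra h2
  exact hx (h x h2)

theorem of0_supp (hK : IsCompact K) (hKe : K ⊆ e.target) {g : C2 → V} (hg : ∀ z ∉ K, g z = 0) :
    HasCompactSupport (of0 κ e g) ∧ tsupport (of0 κ e g) ⊆ e.symm '' K :=
  tsupport_subset_symm hK hKe fun x hx => of0_zero_of fun hxs => hg _ (notMem_symm_image hx hxs)

theorem of1_supp (hK : IsCompact K) (hKe : K ⊆ e.target) {g : C2 → Fin 2 → V}
    (hg : ∀ z ∉ K, g z = 0) :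
    HasCompactSupport (of1 κ e g) ∧ tsupport (of1 κ e g) ⊆ e.symm '' K :=
  tsupport_subset_symm hK hKe fun x hx => of1_zero_of fun hxs => hg _ (notMem_symm_image hx hxs)

theorem of2_supp (hK : IsCompact K) (hKe : K ⊆ e.target) {g : C2 → V} (hg : ∀ z ∉ K, g z = 0) :
    HasCompactSupport (of2 κ e g) ∧ tsupport (of2 κ e g) ⊆ e.symm '' K :=
  tsupport_subset_symm hK hKe fun x hx => of2_zero_of fun hxs => hg _ (notMem_symm_image hx hxs)

theorem reg0_of0 {n : WithTop ℕ∞} (he : e ∈ atlas C2 X) (hK : IsCompact K) (hKe : K ⊆ e.target)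
    {g : C2 → V} (hg : ∀ z ∉ K, g z = 0) (hgc : ContDiffOn ℝ n g e.target) :
    Reg0 n κ (of0 κ e g) := by
  rw [reg0_iff_at]
  intro x
  by_cases hx : x ∈ e.source
  · refine at0_of_chart he hx ?_
    refine (hgc.contDiffAt (e.open_target.mem_nhds (e.map_source hx))).congr_of_eventuallyEq ?_
    filter_upwards [e.open_target.mem_nhds (e.map_source hx)] with z hz
    exact loc0_of0 he hz g
  · have h1 : x ∉ e.symm '' K := fun h => hx (symm_image_subset hKe h)
    refine (at0_zero (V := V)).congr ?_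
    filter_upwards [(isCompact_symm_image hK hKe).isClosed.isOpen_compl.mem_nhds h1] with y hy
    exact of0_zero_of fun hxs => hg _ (notMem_symm_image hy hxs)

theorem reg1_of1 {n : WithTop ℕ∞} (he : e ∈ atlas C2 X) (hK : IsCompact K) (hKe : K ⊆ e.target)
    {g : C2 → Fin 2 → V} (hg : ∀ z ∉ K, g z = 0) (hgc : ContDiffOn ℝ n g e.target) :
    Reg1 n κ (of1 κ e g) := by
  rw [reg1_iff_at]
  intro x
  by_cases hx : x ∈ e.source
  · refine at1_of_chart he hx ?_
    refine (hgc.contDiffAt (e.open_target.mem_nhds (e.map_source hx))).congr_of_eventuallyEq ?_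
    filter_upwards [e.open_target.mem_nhds (e.map_source hx)] with z hz
    funext i
    exact loc1_of1 he hz g i
  · have h1 : x ∉ e.symm '' K := fun h => hx (symm_image_subset hKe h)
    refine (at1_zero (V := V)).congr ?_
    filter_upwards [(isCompact_symm_image hK hKe).isClosed.isOpen_compl.mem_nhds h1] with y hy
    exact of1_zero_of fun hxs => hg _ (notMem_symm_image hy hxs)

theorem reg2_of2 {n : WithTop ℕ∞} (he : e ∈ atlas C2 X) (hK : IsCompact K) (hKe : K ⊆ e.target)
    {g : C2 → V} (hg : ∀ z ∉ K, g z = 0) (hgc : ContDiffOn ℝ n g e.target) :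
    Reg2 n κ (of2 κ e g) := by
  rw [reg2_iff_at]
  intro x
  by_cases hx : x ∈ e.source
  · refine at2_of_chart he hx ?_
    refine (hgc.contDiffAt (e.open_target.mem_nhds (e.map_source hx))).congr_of_eventuallyEq ?_
    filter_upwards [e.open_target.mem_nhds (e.map_source hx)] with z hz
    exact loc2_of2 he hz g
  · have h1 : x ∉ e.symm '' K := fun h => hx (symm_image_subset hKe h)
    refine (at2_zero (V := V)).congr ?_
    filter_upwards [(isCompact_symm_image hK hKe).isClosed.isOpen_compl.mem_nhds h1] with y hy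
    exact of2_zero_of fun hxs => hg _ (notMem_symm_image hy hxs)

end supp

/-! ### `∂̄` -/

theorem loc1_dbar0_of0 (he : e ∈ atlas C2 X) {z : C2} (hz : z ∈ e.target) {g : C2 → V}
    (hg : DifferentiableAt ℝ g z) (i : Fin 2) :
    loc1 κ e (dbar0 κ (of0 κ e g)) z i = dzb i g z := by
  have h1 : loc0 κ e (of0 κ e g) =ᶠ[𝓝 z] g := by
    filter_upwards [e.open_target.mem_nhds hz] with y hy
    exact loc0_of0 he hy g
  rw [loc1_dbar0 he hz (hg.congr_of_eventuallyEq h1), dzb_congr h1]

theorem loc2_dbar1_of1 (he : e ∈ atlas C2 X) {z : C2} (hz : z ∈ e.target) {g : C2 → Fin 2 → V}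
    (hg : DifferentiableAt ℝ g z) :
    loc2 κ e (dbar1 κ (of1 κ e g)) z = dzb 0 (fun y => g y 1) z - dzb 1 (fun y => g y 0) z := by
  have h1 : loc1 κ e (of1 κ e g) =ᶠ[𝓝 z] g := by
    filter_upwards [e.open_target.mem_nhds hz] with y hy
    funext i
    exact loc1_of1 he hy g i
  have h2 : ∀ i, (fun y => loc1 κ e (of1 κ e g) y i) =ᶠ[𝓝 z] fun y => g y i := fun i =>
    h1.mono fun y hy => congrFun hy i
  rw [loc2_dbar1 he hz (hg.congr_of_eventuallyEq h1), dzb_congr (h2 1), dzb_congr (h2 0)]

end atlas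

end Vale.Agent.P267.H439
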