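import Vale.Agent.P267.H439.DivGeo
import Vale.Agent.P267.H399.Wirt

/-!
# P267: the local `∂̄`-Poincaré lemma in degree `(0,1)` on `ℂ²`
-/

open Filter Topology MeasureTheory Set Metric
open scoped ContDiff Real

namespace Vale.Agent.P267.H439

open FL

noncomputable section

theorem dzb_eq_dbv (j : Fin 2) (f : C2 → ℂ) (z : C2) : dzb j f z = dbv f z (Pi.single j 1) := by
  unfold dzb dbv
  rw [single_I]
  rfl

theorem dbv_comp_clm {E E' : Type*} [NormedAddCommGroup E] [NormedSpace ℂ E]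
    [NormedAddCommGroup E'] [NormedSpace ℂ E'] (T : E →L[ℂ] E') {u : E' → ℂ} {z : E}
    (hu : DifferentiableAt ℝ u (T z)) (v : E) :
    dbv (fun y => u (T y)) z v = dbv u (T z) (T v) := by
  have h1 : HasFDerivAt (𝕜 := ℝ) (fun y : E => T y) (T.restrictScalars ℝ) z :=
    (T.restrictScalars ℝ).hasFDerivAt
  have h5 : fderiv ℝ (fun y => u (T y)) z = (fderiv ℝ u (T z)).comp (T.restrictScalars ℝ) :=
    (hu.hasFDerivAt.comp z h1).fderiv
  unfold dbv
  rw [h5]
  simp

theorem dbv_cau2_zero {P : Type*} [NormedAddCommGroup P] [NormedSpace ℂ P] {g : P × ℂ → ℂ}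
    (hg : ContDiff ℝ ∞ g) {K : Set ℂ} (hK : IsCompact K)
    (hgs : ∀ p x, x ∉ K → g (p, x) = 0) (q v : P × ℂ) (h : ∀ y, dbv g (q.1, y) v = 0) :
    dbv (cau2 g) q v = 0 := by
  have h1 : ∀ y, fderiv ℝ g (q.1, y) v = -Complex.I * fderiv ℝ g (q.1, y) (Complex.I • v) := by
    intro y
    have h2 := h y
    unfold dbv at h2
    have h3 : fderiv ℝ g (q.1, y) v + Complex.I * fderiv ℝ g (q.1, y) (Complex.I • v) = 0 := by
      rcases mul_eq_zero.1 h2 with h4 | h4
      · norm_num at h4
      · exact h4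
    linear_combination h3
  unfold dbv
  rw [fderiv_cau2_apply hg hK hgs, fderiv_cau2_apply hg hK hgs]
  have h4 : (∫ t : ℂ, ker1 t * fderiv ℝ g (q.1, q.2 - t) v) =
      -Complex.I * ∫ t : ℂ, ker1 t * fderiv ℝ g (q.1, q.2 - t) (Complex.I • v) := by
    rw [← integral_const_mul]
    refine integral_congr_ae (Eventually.of_forall fun t => ?_)
    show ker1 t * fderiv ℝ g (q.1, q.2 - t) v = _
    rw [h1]
    ring
  rw [h4]
  ring

/-- coordinates `(z_{j+1}, z_j)` -/
def cT (j : Fin 2) : C2 →L[ℂ] ℂ × ℂ :=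
  (ContinuousLinearMap.proj (j + 1)).prod (ContinuousLinearMap.proj j)

def cS (j : Fin 2) : ℂ × ℂ →L[ℂ] C2 :=
  ContinuousLinearMap.pi fun k => if k = j then ContinuousLinearMap.snd ℂ ℂ ℂ
    else ContinuousLinearMap.fst ℂ ℂ ℂ

theorem cS_cT (j : Fin 2) (z : C2) : cS j (cT j z) = z := by
  ext k
  fin_cases j <;> fin_cases k <;> simp [cS, cT]

theorem cT_cS (j : Fin 2) (q : ℂ × ℂ) : cT j (cS j q) = q := by
  ext <;> fin_cases j <;> simp [cS, cT]

theorem cT_single_self (j : Fin 2) : cT j (Pi.single j 1) = (0, 1) := by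
  fin_cases j <;> simp [cT]

theorem cT_single_ne {i j : Fin 2} (h : i ≠ j) : cT j (Pi.single i 1) = (1, 0) := by
  fin_cases i <;> fin_cases j <;> simp_all [cT]

theorem cS_one_zero {i j : Fin 2} (h : i ≠ j) : cS j (1, 0) = Pi.single i 1 := by
  rw [← cT_single_ne h, cS_cT]

theorem cT_fst {i j : Fin 2} (h : i ≠ j) (z : C2) : (cT j z).1 = z i := by
  fin_cases i <;> fin_cases j <;> simp_all [cT]

/-- Cauchy transform in the variable `z_j` -/
def cauT (j : Fin 2) (g : C2 → ℂ) (z : C2) : ℂ := cau2 (fun q => g (cS j q)) (cT j z)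

section

variable {g : C2 → ℂ}

theorem cau_aux (hg : ContDiff ℝ ∞ g) (hs : HasCompactSupport g) (j : Fin 2) :
    ContDiff ℝ ∞ (fun q => g (cS j q)) ∧ ∃ K : Set ℂ, IsCompact K ∧
      ∀ p x, x ∉ K → g (cS j (p, x)) = 0 := by
  refine ⟨hg.comp ((cS j).restrictScalars ℝ).contDiff, (fun z : C2 => z j) '' tsupport g,
    hs.isCompact.image (continuous_apply j), ?_⟩
  intro p x hx
  by_contra h
  refine hx ⟨cS j (p, x), subset_tsupport _ h, ?_⟩
  simp [cS]

theorem cauT_contDiff (hg : ContDiff ℝ ∞ g) (hs : HasCompactSupport g) (j : Fin 2) :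
    ContDiff ℝ ∞ (cauT j g) := by
  obtain ⟨h1, K, hK, h2⟩ := cau_aux hg hs j
  exact (cau2_contDiff h1 hK h2).comp ((cT j).restrictScalars ℝ).contDiff

theorem dzb_cauT_self (hg : ContDiff ℝ ∞ g) (hs : HasCompactSupport g) (j : Fin 2) (z : C2) :
    dzb j (cauT j g) z = g z := by
  obtain ⟨h1, K, hK, h2⟩ := cau_aux hg hs j
  have h3 : DifferentiableAt ℝ (cau2 fun q => g (cS j q)) (cT j z) :=
    (cau2_contDiff h1 hK h2).differentiable (by simp) _
  rw [dzb_eq_dbv]
  have h4 := dbv_comp_clm (cT j) h3 (Pi.single j 1)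
  have h5 : dbv (cauT j g) z (Pi.single j 1) = _ := h4
  rw [h5, cT_single_self, dbv_cau2 h1 hK h2, cS_cT]

theorem dzb_cauT_ne (hg : ContDiff ℝ ∞ g) (hs : HasCompactSupport g) {i j : Fin 2} (hij : i ≠ j)
    (z : C2) (h : ∀ y, y i = z i → dzb i g y = 0) : dzb i (cauT j g) z = 0 := by
  obtain ⟨h1, K, hK, h2⟩ := cau_aux hg hs j
  have h3 : DifferentiableAt ℝ (cau2 fun q => g (cS j q)) (cT j z) :=
    (cau2_contDiff h1 hK h2).differentiable (by simp) _
  rw [dzb_eq_dbv]
  have h5 : dbv (cauT j g) z (Pi.single i 1) = _ := dbv_comp_clm (cT j) h3 (Pi.single i 1)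
  rw [h5, cT_single_ne hij]
  refine dbv_cau2_zero h1 hK h2 _ _ fun y => ?_
  have h6 : DifferentiableAt ℝ g (cS j ((cT j z).1, y)) := hg.differentiable (by simp) _
  rw [dbv_comp_clm (cS j) h6, cS_one_zero hij, ← dzb_eq_dbv]
  apply h
  have := cT_fst hij (cS j ((cT j z).1, y))
  rw [cT_cS] at this
  rw [← this]
  exact cT_fst hij z

end

/-- product cut-off function around `p` -/
def cut (p : C2) {r : ℝ} (hr : 0 < r) (z : C2) : ℂ :=
  let B : ∀ j, ContDiffBump (p j) := fun _ => ⟨r, 2 * r, hr, by linarith⟩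
  ((B 0 (z 0) * B 1 (z 1) : ℝ) : ℂ)

theorem cut_contDiff (p : C2) {r : ℝ} (hr : 0 < r) : ContDiff ℝ ∞ (cut p hr) := by
  unfold cut
  refine Complex.ofRealCLM.contDiff.comp (ContDiff.mul ?_ ?_)
  · exact (ContDiffBump.contDiff _).comp (contDiff_apply (𝕜 := ℝ) (E := ℂ) (0 : Fin 2))
  · exact (ContDiffBump.contDiff _).comp (contDiff_apply (𝕜 := ℝ) (E := ℂ) (1 : Fin 2))

theorem cut_eq_one (p : C2) {r : ℝ} (hr : 0 < r) {z : C2} (hz : z ∈ closedBall p r) :
    cut p hr z = 1 := by
  have h := (mem_closedBall_iff_norm.1 hz)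
  have h0 : ‖z 0 - p 0‖ ≤ r := (norm_le_pi_norm (z - p) 0).trans h
  have h1 : ‖z 1 - p 1‖ ≤ r := (norm_le_pi_norm (z - p) 1).trans h
  unfold cut
  simp only
  rw [ContDiffBump.one_of_mem_closedBall _ (by rw [mem_closedBall_iff_norm]; exact h0),
    ContDiffBump.one_of_mem_closedBall _ (by rw [mem_closedBall_iff_norm]; exact h1)]
  simp

theorem cut_eq_zero (p : C2) {r : ℝ} (hr : 0 < r) {z : C2} (hz : z ∉ ball p (2 * r)) :
    cut p hr z = 0 := by
  have h : ¬ ∀ j, ‖z j - p j‖ < 2 * r := by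
    intro h
    apply hz
    rw [mem_ball_iff_norm, pi_norm_lt_iff (by linarith)]
    exact h
  unfold cut
  simp only
  rw [Fin.forall_fin_two, not_and_or] at h
  rcases h with h | h
  · rw [ContDiffBump.zero_of_le_dist (c := p 0) _ (by rw [dist_eq_norm]; exact not_lt.1 h)]
    simp
  · rw [ContDiffBump.zero_of_le_dist (c := p 1) _ (by rw [dist_eq_norm]; exact not_lt.1 h)]
    simp

/-- multiplication by the cut-off gives a smooth function of compact support -/
theorem cut_mul {U : Set C2} (hU : IsOpen U) {f : C2 → ℂ} (hf : ContDiffOn ℝ ∞ f U) {p : C2}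
    {r : ℝ} (hr : 0 < r) (hpU : closedBall p (2 * r) ⊆ U) :
    ContDiff ℝ ∞ (fun z => cut p hr z * f z) ∧ HasCompactSupport fun z => cut p hr z * f z := by
  refine ⟨?_, ?_⟩
  · rw [contDiff_iff_contDiffAt]
    intro z
    by_cases hz : z ∈ U
    · exact (cut_contDiff p hr).contDiffAt.mul (hf.contDiffAt (hU.mem_nhds hz))
    · have h1 : z ∉ closedBall p (2 * r) := fun h => hz (hpU h)
      have h2 : ∀ᶠ y in 𝓝 z, cut p hr y * f y = 0 := by
        filter_upwards [isClosed_closedBall.isOpen_compl.mem_nhds h1] with y hy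
        rw [cut_eq_zero p hr fun h => hy (ball_subset_closedBall h), zero_mul]
      exact (contDiffAt_const (c := (0 : ℂ))).congr_of_eventuallyEq h2
  · refine HasCompactSupport.intro (isCompact_closedBall p (2 * r)) fun z hz => ?_
    rw [cut_eq_zero p hr fun h => hz (ball_subset_closedBall h), zero_mul]

theorem cut_mul_eventuallyEq {f : C2 → ℂ} {p : C2} {r : ℝ} (hr : 0 < r) {z : C2}
    (hz : z ∈ ball p r) : (fun z => cut p hr z * f z) =ᶠ[𝓝 z] f := by
  filter_upwards [isOpen_ball.mem_nhds hz] with y hy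
  rw [cut_eq_one p hr (ball_subset_closedBall hy), one_mul]

/-- **local `∂̄`-Poincaré lemma in degree `(0,1)`** -/
theorem dbar_poincare {U : Set C2} (hU : IsOpen U) {p : C2} (hp : p ∈ U) {f : Fin 2 → C2 → ℂ}
    (hf : ∀ i, ContDiffOn ℝ ∞ (f i) U) (hcl : ∀ z ∈ U, dzb 0 (f 1) z = dzb 1 (f 0) z) :
    ∃ V, IsOpen V ∧ p ∈ V ∧ V ⊆ U ∧ ∃ u : C2 → ℂ, ContDiff ℝ ∞ u ∧
      ∀ z ∈ V, ∀ i, dzb i u z = f i z := by
  obtain ⟨R, hR, hRU⟩ := Metric.nhds_basis_closedBall.mem_iff.1 (hU.mem_nhds hp)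
  set r : ℝ := R / 2 with hr'
  have hr : 0 < r := by positivity
  have hrU : closedBall p (2 * r) ⊆ U := by
    have : 2 * r = R := by rw [hr']; ring
    rw [this]; exact hRU
  -- first step
  obtain ⟨h1c, h1s⟩ := cut_mul hU (hf 1) hr hrU
  set g1 : C2 → ℂ := fun z => cut p hr z * f 1 z with hg1
  set u1 : C2 → ℂ := cauT 1 g1 with hu1
  have hu1c : ContDiff ℝ ∞ u1 := cauT_contDiff h1c h1s 1
  have hu1e : ∀ z, dzb 1 u1 z = g1 z := fun z => dzb_cauT_self h1c h1s 1 z
  -- the remainder
  set k : C2 → ℂ := fun z => f 0 z - dzb 0 u1 z with hk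
  have hkc : ContDiffOn ℝ ∞ k U := by
    refine (hf 0).sub ?_
    have := contDiffOn_dzb (m := ∞) (n := ∞) isOpen_univ hu1c.contDiffOn (by simp) 0
    exact this.mono (subset_univ _)
  have hk1 : ∀ z ∈ ball p r, dzb 1 k z = 0 := by
    intro z hz
    have hzU : z ∈ U := hrU ((ball_subset_ball (by linarith)).trans ball_subset_closedBall hz)
    have hd1 : DifferentiableAt ℝ (f 0) z :=
      ((hf 0).contDiffAt (hU.mem_nhds hzU)).differentiableAt (by simp)
    have hd2 : DifferentiableAt ℝ (dzb 0 u1) z :=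
      ((contDiffAt_dzb (m := ∞) (n := ∞) hu1c.contDiffAt (by simp) 0)).differentiableAt (by simp)
    rw [hk, dzb_sub hd1 hd2, dzb_dzb_comm (by exact_mod_cast (contDiff_infty.1 hu1c 2).contDiffAt)]
    have h2 : dzb 1 u1 =ᶠ[𝓝 z] f 1 := by
      have : dzb 1 u1 = g1 := funext hu1e
      rw [this]
      exact cut_mul_eventuallyEq hr hz
    rw [dzb_congr h2, hcl z hzU, sub_self]
  -- second step
  set s : ℝ := r / 4 with hs'
  have hs : 0 < s := by positivity
  have hsU : closedBall p (2 * s) ⊆ U := by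
    refine (closedBall_subset_closedBall ?_).trans hrU
    rw [hs']; linarith
  obtain ⟨h0c, h0s⟩ := cut_mul hU hkc hs hsU
  set g0 : C2 → ℂ := fun z => cut p hs z * k z with hg0
  set u0 : C2 → ℂ := cauT 0 g0 with hu0
  have hu0c : ContDiff ℝ ∞ u0 := cauT_contDiff h0c h0s 0
  have hu0e : ∀ z, dzb 0 u0 z = g0 z := fun z => dzb_cauT_self h0c h0s 0 z
  have hu0z : ∀ z ∈ ball p s, dzb 1 u0 z = 0 := by
    intro z hz
    refine dzb_cauT_ne h0c h0s (by decide) z fun y hy => ?_
    by_cases hyb : y ∈ closedBall p (2 * s)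
    · have hyr : y ∈ ball p r := closedBall_subset_ball (by rw [hs']; linarith) hyb
      have hyU : y ∈ U := hsU hyb
      have hc0 : dzb 1 (cut p hs) y = 0 := by
        -- the cut-off is locally constant in the second variable
        have hz1 : ‖z 1 - p 1‖ < s := (norm_le_pi_norm (z - p) 1).trans_lt (mem_ball_iff_norm.1 hz)
        have hfd : ∀ v : C2, v 0 = 0 → fderiv ℝ (cut p hs) y v = 0 := by
          intro v hv
          have hdc : DifferentiableAt ℝ (cut p hs) y := (cut_contDiff p hs).differentiable (by simp) y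
          have hl : HasDerivAt (fun t : ℝ => cut p hs (y + t • v)) (fderiv ℝ (cut p hs) y v) 0 := by
            have e1 : HasDerivAt (fun t : ℝ => y + t • v) v 0 := by
              simpa using ((hasDerivAt_id (0 : ℝ)).smul_const v).const_add y
            have e2 : HasFDerivAt (cut p hs) (fderiv ℝ (cut p hs) y) (y + (0 : ℝ) • v) := by
              simpa using hdc.hasFDerivAt
            exact e2.comp_hasDerivAt 0 e1
          have hconst : (fun t : ℝ => cut p hs (y + t • v)) =ᶠ[𝓝 0] fun _ => cut p hs y := by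
            have hcont : Continuous fun t : ℝ => (y + t • v) 1 := by fun_prop
            have hmem : ∀ᶠ t in 𝓝 (0 : ℝ), (y + t • v) 1 ∈ ball (p 1) s := by
              apply hcont.continuousAt.eventually
              apply isOpen_ball.mem_nhds
              simp only [zero_smul, add_zero, mem_ball_iff_norm, hy]
              exact hz1
            filter_upwards [hmem] with t ht
            unfold cut
            simp only
            have e1 : (y + t • v) 0 = y 0 := by simp [hv]
            rw [e1, ContDiffBump.one_of_mem_closedBall (c := p 1) _ (ball_subset_closedBall ht),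
              ContDiffBump.one_of_mem_closedBall (c := p 1) _ (x := y 1)
                (by rw [hy, mem_closedBall_iff_norm]; exact hz1.le)]
          have := hl.unique ((hasDerivAt_const (0 : ℝ) (cut p hs y)).congr_of_eventuallyEq hconst)
          exact this
        unfold dzb
        rw [hfd _ (by simp), hfd _ (by simp)]
        simp
      have hd1 : DifferentiableAt ℝ (cut p hs) y := (cut_contDiff p hs).differentiable (by simp) y
      have hd2 : DifferentiableAt ℝ k y :=
        (hkc.contDiffAt (hU.mem_nhds hyU)).differentiableAt (by simp)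
      rw [hg0, dzb_mul hd1 hd2, hc0, hk1 y hyr]
      simp
    · have h2 : g0 =ᶠ[𝓝 y] fun _ => 0 := by
        filter_upwards [isClosed_closedBall.isOpen_compl.mem_nhds hyb] with x hx
        rw [hg0]
        simp only
        rw [cut_eq_zero p hs fun h => hx (ball_subset_closedBall h), zero_mul]
      rw [dzb_congr h2, dzb_const]
  refine ⟨ball p s, isOpen_ball, mem_ball_self hs, ball_subset_closedBall.trans
    ((closedBall_subset_closedBall (by linarith)).trans hsU), fun z => u1 z + u0 z,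
    hu1c.add hu0c, ?_⟩
  intro z hz
  have hd1 : DifferentiableAt ℝ u1 z := hu1c.differentiable (by simp) z
  have hd0 : DifferentiableAt ℝ u0 z := hu0c.differentiable (by simp) z
  have hzr : z ∈ closedBall p r := (ball_subset_closedBall.trans
    (closedBall_subset_closedBall (by rw [hs']; linarith))) hz
  rw [Fin.forall_fin_two]
  refine ⟨?_, ?_⟩
  · rw [dzb_add hd1 hd0, hu0e, hg0, hk]
    simp only
    rw [cut_eq_one p hs (ball_subset_closedBall hz)]
    ring
  · rw [dzb_add hd1 hd0, hu0z z hz, hu1e, hg1]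
    simp only
    rw [cut_eq_one p hr hzr]
    ring

end

end Vale.Agent.P267.H439
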