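import Vale.Agent.P267.H439.DivLoc

/-!
# P267, package DIV-LOC: good coordinates and the invariant local division lemma
-/

open Filter Topology MeasureTheory Set Metric
open scoped ContDiff Real

namespace Vale.Agent.P267.H439

noncomputable section

variable {E : Type*} [NormedAddCommGroup E] [NormedSpace ℂ E]

/-- a nonzero germ is nonzero along some complex line -/
theorem exists_line {h : E → ℂ} {p : E} (hh : AnalyticAt ℂ h p)
    (hne : ¬ ∀ᶠ z in 𝓝 p, h z = 0) : ∃ v : E, ¬ ∀ᶠ t : ℂ in 𝓝 0, h (p + t • v) = 0 := by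
  by_contra hcon
  push Not at hcon
  apply hne
  obtain ⟨R, hR, hball⟩ := Metric.eventually_nhds_iff_ball.1 hh.eventually_analyticAt
  refine Metric.eventually_nhds_iff_ball.2 ⟨R, hR, fun x hx => ?_⟩
  set v := x - p with hv
  set U : Set ℂ := (fun t : ℂ => p + t • v) ⁻¹' ball p R with hU
  have hUconv : Convex ℝ U := by
    have hc : Convex ℝ (ball p R) := convex_ball p R
    intro a ha b hb s t hs ht hst
    have h1 : p + (s • a + t • b) • v = s • (p + a • v) + t • (p + b • v) := by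
      have : p = s • p + t • p := by rw [← add_smul, hst, one_smul]
      rw [add_smul, smul_add, smul_add]
      nth_rewrite 1 [this]
      simp only [smul_assoc]
      abel
    show p + (s • a + t • b) • v ∈ ball p R
    rw [h1]
    exact hc ha hb hs ht hst
  have hUan : AnalyticOnNhd ℂ (fun t : ℂ => h (p + t • v)) U := by
    intro t ht
    have h1 : AnalyticAt ℂ h (p + t • v) := hball _ ht
    have h2 : AnalyticAt ℂ (fun t : ℂ => p + t • v) t :=
      analyticAt_const.add (analyticAt_id.smul analyticAt_const)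
    exact AnalyticAt.fun_comp (f := fun t : ℂ => p + t • v) h1 h2
  have h0 : (0 : ℂ) ∈ U := by
    show p + (0 : ℂ) • v ∈ ball p R
    simpa using hR
  have h1 : (1 : ℂ) ∈ U := by
    show p + (1 : ℂ) • v ∈ ball p R
    simpa [hv] using hx
  have := hUan.eqOn_zero_of_preconnected_of_eventuallyEq_zero hUconv.isPreconnected h0 (hcon v) h1
  simpa [hv] using this

/-- good linear coordinates -/
theorem exists_coord [FiniteDimensional ℂ E] (hE : Module.finrank ℂ E = 2) {v : E} (hv : v ≠ 0) :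
    ∃ L : (ℂ × ℂ) ≃L[ℂ] E, L (0, 1) = v := by
  obtain ⟨ℓ, hℓ1, hℓ2⟩ := exists_dual_vector ℂ v (norm_ne_zero_iff.2 hv)
  have hℓv : ℓ v ≠ 0 := by
    rw [hℓ2]
    simpa using hv
  have hker : 0 < Module.finrank ℂ (LinearMap.ker (ℓ : E →ₗ[ℂ] ℂ)) := by
    have h1 := LinearMap.finrank_range_add_finrank_ker (ℓ : E →ₗ[ℂ] ℂ)
    have h2 : Module.finrank ℂ (LinearMap.range (ℓ : E →ₗ[ℂ] ℂ)) ≤ 1 := by
      have := Submodule.finrank_le (LinearMap.range (ℓ : E →ₗ[ℂ] ℂ))
      simpa using this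
    rw [hE] at h1
    omega
  obtain ⟨w, hw⟩ := (Module.finrank_pos_iff_exists_ne_zero (R := ℂ)).1 hker
  have hwk : ℓ (w : E) = 0 := by
    have := w.2
    rwa [LinearMap.mem_ker] at this
  have hw0 : (w : E) ≠ 0 := fun h => hw (Subtype.ext h)
  let f : (ℂ × ℂ) →ₗ[ℂ] E :=
    { toFun := fun z => z.1 • (w : E) + z.2 • v
      map_add' := by intro a b; simp only [Prod.fst_add, Prod.snd_add, add_smul]; abel
      map_smul' := by
        intro c a
        simp only [Prod.smul_fst, Prod.smul_snd, smul_eq_mul, mul_smul, RingHom.id_apply, smul_add] }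
  have hinj : Function.Injective f := by
    rw [← LinearMap.ker_eq_bot, LinearMap.ker_eq_bot']
    intro z hz
    have h1 : z.1 • (w : E) + z.2 • v = 0 := hz
    have h2 : ℓ (z.1 • (w : E) + z.2 • v) = 0 := by rw [h1, map_zero]
    rw [map_add, map_smul, map_smul, hwk, smul_zero, zero_add, smul_eq_mul, mul_eq_zero] at h2
    have h3 : z.2 = 0 := h2.resolve_right hℓv
    rw [h3, zero_smul, add_zero, smul_eq_zero] at h1
    exact Prod.ext (h1.resolve_right hw0) h3
  have hfr : Module.finrank ℂ (ℂ × ℂ) = Module.finrank ℂ E := by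
    rw [hE]; simp
  let e := LinearEquiv.ofInjectiveOfFinrankEq f hinj hfr
  refine ⟨e.toContinuousLinearEquiv, ?_⟩
  show f (0, 1) = v
  simp [f]

/-- good coordinates near a point of the zero set of a nonzero germ -/
theorem exists_good_coord [FiniteDimensional ℂ E] (hE : Module.finrank ℂ E = 2) {h : E → ℂ}
    {p : E} (hh : AnalyticAt ℂ h p) (hne : ¬ ∀ᶠ z in 𝓝 p, h z = 0) :
    ∃ L : (ℂ × ℂ) ≃L[ℂ] E, ∀ δ > 0, ∃ r ε ρ : ℝ, 0 < r ∧ 0 < ε ∧ 0 < ρ ∧ r + ε < δ ∧ ρ < δ ∧
      ∀ z ∈ closedBall (0 : ℂ) ρ ×ˢ (closedBall (0 : ℂ) (r + ε) \ ball 0 r),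
        AnalyticAt ℂ h (p + L z) ∧ h (p + L z) ≠ 0 := by
  have key : ∃ v : E, v ≠ 0 ∧ ¬ ∀ᶠ t : ℂ in 𝓝 0, h (p + t • v) = 0 := by
    by_cases h0 : h p = 0
    · obtain ⟨v, hv⟩ := exists_line hh hne
      refine ⟨v, ?_, hv⟩
      rintro rfl
      exact hv (Eventually.of_forall fun t => by simpa using h0)
    · have : Nontrivial E := by
        apply Module.nontrivial_of_finrank_pos (R := ℂ)
        omega
      obtain ⟨v, hv⟩ := exists_ne (0 : E)
      refine ⟨v, hv, fun hcon => h0 ?_⟩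
      have := hcon.self_of_nhds
      simpa using this
  obtain ⟨v, hv0, hv⟩ := key
  obtain ⟨L, hL⟩ := exists_coord hE hv0
  refine ⟨L, fun δ hδ => ?_⟩
  -- zeros of the restriction to the line are isolated
  have hf : AnalyticAt ℂ (fun t : ℂ => h (p + t • v)) 0 := by
    have h1 : AnalyticAt ℂ h (p + (0 : ℂ) • v) := by simpa using hh
    have h2 : AnalyticAt ℂ (fun t : ℂ => p + t • v) 0 :=
      analyticAt_const.add (analyticAt_id.smul analyticAt_const)
    exact AnalyticAt.fun_comp (f := fun t : ℂ => p + t • v) h1 h2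
  have hiso := hf.eventually_eq_zero_or_eventually_ne_zero.resolve_left hv
  have han : ∀ᶠ t : ℂ in 𝓝 0, AnalyticAt ℂ h (p + t • v) := by
    have h1 : Tendsto (fun t : ℂ => p + t • v) (𝓝 0) (𝓝 p) := by
      have : Continuous fun t : ℂ => p + t • v := by fun_prop
      simpa using this.tendsto 0
    exact h1.eventually hh.eventually_analyticAt
  rw [eventually_nhdsWithin_iff] at hiso
  obtain ⟨R, hR, hball⟩ := Metric.eventually_nhds_iff_ball.1 (hiso.and han)
  set m := min δ R with hm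
  have hm0 : 0 < m := lt_min hδ hR
  set A : Set ℂ := closedBall (0 : ℂ) (m / 4 + m / 4) \ ball 0 (m / 4) with hA
  have hAc : IsCompact A := (isCompact_closedBall _ _).diff isOpen_ball
  set N : Set (ℂ × ℂ) := {z | AnalyticAt ℂ h (p + L z) ∧ h (p + L z) ≠ 0} with hN
  have hNo : IsOpen N := by
    rw [isOpen_iff_mem_nhds]
    rintro z ⟨h1, h2⟩
    have hc : Tendsto (fun z : ℂ × ℂ => p + L z) (𝓝 z) (𝓝 (p + L z)) :=
      (continuous_const.add L.continuous).tendsto z
    have e1 := hc.eventually h1.eventually_analyticAt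
    have e2 := hc.eventually (h1.continuousAt.eventually_ne h2)
    exact e1.and e2
  have hsub : ({0} : Set ℂ) ×ˢ A ⊆ N := by
    rintro ⟨s, t⟩ ⟨hs, ht⟩
    have hs0 : s = 0 := hs
    subst hs0
    have hLt : L (0, t) = t • v := by
      have : ((0 : ℂ), t) = t • ((0 : ℂ), (1 : ℂ)) := by simp
      rw [this, map_smul, hL]
    have ht1 : ‖t‖ ≤ m / 4 + m / 4 := by simpa using ht.1
    have ht2 : m / 4 ≤ ‖t‖ := by simpa using ht.2
    have htne : t ≠ 0 := by
      rintro rfl
      rw [norm_zero] at ht2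
      linarith
    have htb : t ∈ ball (0 : ℂ) R := by
      rw [mem_ball_zero_iff]
      have : m ≤ R := min_le_right _ _
      linarith
    obtain ⟨h1, h2⟩ := hball t htb
    show AnalyticAt ℂ h (p + L (0, t)) ∧ h (p + L (0, t)) ≠ 0
    rw [hLt]
    exact ⟨h2, h1 htne⟩
  obtain ⟨u, w, hu, hw, h0u, hAw, huw⟩ := generalized_tube_lemma isCompact_singleton hAc hNo hsub
  obtain ⟨ρ, hρ, hρu⟩ := Metric.isOpen_iff.1 hu 0 (h0u rfl)
  refine ⟨m / 4, m / 4, min (ρ / 2) (δ / 2), by linarith, by linarith,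
    lt_min (by linarith) (by linarith), ?_, ?_, ?_⟩
  · have : m ≤ δ := min_le_left _ _
    linarith
  · exact (min_le_right _ _).trans_lt (by linarith)
  · rintro ⟨s, t⟩ ⟨hs, ht⟩
    have hs' : s ∈ u := by
      apply hρu
      rw [mem_ball_zero_iff]
      have : ‖s‖ ≤ min (ρ / 2) (δ / 2) := by simpa using hs
      have := this.trans (min_le_left _ _)
      linarith
    exact huw ⟨hs', hAw ht⟩

theorem dbv_smul_dir (f : E → ℂ) (z v : E) (c : ℂ) :
    dbv f z (c • v) = starRingEnd ℂ c * dbv f z v := by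
  have key : ∀ w : E, fderiv ℝ f z (c • w) =
      (c.re : ℂ) * fderiv ℝ f z w + (c.im : ℂ) * fderiv ℝ f z (Complex.I • w) := by
    intro w
    have h1 : c • w = c.re • w + c.im • (Complex.I • w) := by
      nth_rewrite 1 [← Complex.re_add_im c]
      rw [add_smul, mul_smul]
      simp [Complex.coe_smul]
    rw [h1, map_add, map_smul, map_smul, Complex.real_smul, Complex.real_smul]
  unfold dbv
  have h2 : Complex.I • c • v = c • (Complex.I • v) := smul_comm _ _ _
  rw [h2, key v, key (Complex.I • v)]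
  have h3 : Complex.I • Complex.I • v = -v := by
    rw [smul_smul, Complex.I_mul_I, neg_one_smul]
  rw [h3, map_neg]
  have h4 : starRingEnd ℂ c = (c.re : ℂ) - (c.im : ℂ) * Complex.I := by
    apply Complex.ext <;> simp
  rw [h4]
  have h5 : Complex.I * Complex.I = -1 := Complex.I_mul_I
  linear_combination (1 / 2) * (c.im : ℂ) * fderiv ℝ f z (Complex.I • v) * h5

theorem dbv_add_dir (f : E → ℂ) (z v w : E) : dbv f z (v + w) = dbv f z v + dbv f z w := by
  unfold dbv
  rw [smul_add, map_add, map_add]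
  ring

/-- chain rule for `dbv` with an invertible complex affine map -/
theorem dbv_comp_affine {E' : Type*} [NormedAddCommGroup E'] [NormedSpace ℂ E'] (A : E ≃L[ℂ] E')
    (p : E) {u : E' → ℂ} {z : E} (hu : DifferentiableAt ℝ u (A (z - p))) (v : E) :
    dbv (fun y => u (A (y - p))) z v = dbv u (A (z - p)) (A v) := by
  have h1 : HasFDerivAt (𝕜 := ℝ) (fun y : E => A (y - p))
      ((A : E →L[ℂ] E').restrictScalars ℝ) z := by
    have h2 : HasFDerivAt (𝕜 := ℝ) (fun y : E => y - p) (ContinuousLinearMap.id ℝ E) z :=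
      (hasFDerivAt_id z).sub_const p
    have h3 : HasFDerivAt (𝕜 := ℝ) (fun y : E => A y) ((A : E →L[ℂ] E').restrictScalars ℝ)
      (z - p) := ((A : E →L[ℂ] E').restrictScalars ℝ).hasFDerivAt
    exact h3.comp z h2
  have h4 := (hu.hasFDerivAt.comp z h1).fderiv
  have h5 : fderiv ℝ (fun y => u (A (y - p))) z = (fderiv ℝ u (A (z - p))).comp
      ((A : E →L[ℂ] E').restrictScalars ℝ) := h4
  unfold dbv
  rw [h5]
  simp

theorem dbv_const_mul {u : E → ℂ} {z : E} (hu : DifferentiableAt ℝ u z) (c : ℂ) (v : E) :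
    dbv (fun y => c * u y) z v = c * dbv u z v := by
  rw [dbv_mul (differentiableAt_const c) hu]
  simp [dbv]

/-- **local division lemma.** Every smooth `(0,2)`-form with small compact support near `p` is
`∂̄ b + h w` with `b, w` smooth of compact support. -/
theorem div_loc {h : (Fin 2 → ℂ) → ℂ} {p : Fin 2 → ℂ} (hh : AnalyticAt ℂ h p)
    (hne : ¬ ∀ᶠ z in 𝓝 p, h z = 0) {U : Set (Fin 2 → ℂ)} (hU : U ∈ 𝓝 p) :
    ∃ V ∈ 𝓝 p, V ⊆ U ∧ ∀ g : (Fin 2 → ℂ) → ℂ, ContDiff ℝ ∞ g → tsupport g ⊆ V →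
      ∃ (b : Fin 2 → (Fin 2 → ℂ) → ℂ) (w : (Fin 2 → ℂ) → ℂ),
        (∀ j, ContDiff ℝ ∞ (b j) ∧ HasCompactSupport (b j) ∧ tsupport (b j) ⊆ U) ∧
        ContDiff ℝ ∞ w ∧ HasCompactSupport w ∧ tsupport w ⊆ U ∧
        ∀ z, g z = dbv (b 1) z (Pi.single 0 1) - dbv (b 0) z (Pi.single 1 1) + h z * w z := by
  obtain ⟨L, hL⟩ := exists_good_coord (by simp) hh hne
  -- a polydisc contained in `U`
  have hcont : Continuous fun z : ℂ × ℂ => p + L z := continuous_const.add L.continuous
  have hpre : (fun z : ℂ × ℂ => p + L z) ⁻¹' U ∈ 𝓝 (0 : ℂ × ℂ) := by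
    apply hcont.continuousAt.preimage_mem_nhds
    simpa using hU
  obtain ⟨δ, hδ, hδU⟩ := Metric.mem_nhds_iff.1 hpre
  obtain ⟨r, ε, ρ, hr, hε, hρ, hrδ, hρδ, hz⟩ := hL δ hδ
  have hbig : ∀ z ∈ closedBall (0 : ℂ) ρ ×ˢ closedBall (0 : ℂ) (r + ε), p + L z ∈ U := by
    rintro ⟨s, t⟩ ⟨hs, ht⟩
    apply hδU
    rw [mem_ball_zero_iff, Prod.norm_def]
    have hs' : ‖s‖ ≤ ρ := by simpa using hs
    have ht' : ‖t‖ ≤ r + ε := by simpa using ht
    exact max_lt (hs'.trans_lt hρδ) (ht'.trans_lt hrδ)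
  set A : (Fin 2 → ℂ) ≃L[ℂ] (ℂ × ℂ) := L.symm with hA
  set K0 : Set (Fin 2 → ℂ) := (fun y => A (y - p)) ⁻¹'
    (closedBall (0 : ℂ) ρ ×ˢ closedBall (0 : ℂ) (r + ε)) with hK0
  have hKU : K0 ⊆ U := by
    intro y hy
    have := hbig _ hy
    simpa [hA] using this
  have hKc : IsCompact K0 := by
    have : K0 = (fun z : ℂ × ℂ => p + L z) ''
        (closedBall (0 : ℂ) ρ ×ˢ closedBall (0 : ℂ) (r + ε)) := by
      ext y
      constructor
      · intro hy
        exact ⟨A (y - p), hy, by simp [hA]⟩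
      · rintro ⟨z, hz, rfl⟩
        simpa [hK0, hA] using hz
    rw [this]
    exact ((isCompact_closedBall _ _).prod (isCompact_closedBall _ _)).image hcont
  refine ⟨(fun y => A (y - p)) ⁻¹' (closedBall (0 : ℂ) ρ ×ˢ closedBall (0 : ℂ) r), ?_, ?_, ?_⟩
  · have : Continuous fun y : Fin 2 → ℂ => A (y - p) := A.continuous.comp (by fun_prop)
    apply this.continuousAt.preimage_mem_nhds
    rw [sub_self, map_zero]
    exact prod_mem_nhds (closedBall_mem_nhds _ hρ) (closedBall_mem_nhds _ hr)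
  · intro y hy
    apply hKU
    exact ⟨hy.1, closedBall_subset_closedBall (by linarith) hy.2⟩
  intro g hg hgs
  -- constants
  set e0 : Fin 2 → ℂ := Pi.single 0 1 with he0
  set e1 : Fin 2 → ℂ := Pi.single 1 1 with he1
  set a : ℂ := (A e0).1 with ha
  set c : ℂ := (A e0).2 with hc
  set b : ℂ := (A e1).1 with hb
  set d : ℂ := (A e1).2 with hd
  set D : ℂ := a * d - b * c with hD
  have hDne : D ≠ 0 := by
    intro h0
    have h1 : A (d • e0 - c • e1) = (D, 0) := by
      rw [map_sub, map_smul, map_smul]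
      ext
      · simp [ha, hb, hc, hd, hD]; ring
      · simp [hc, hd, mul_comm]
    have h2 : A (b • e0 - a • e1) = (0, -D) := by
      rw [map_sub, map_smul, map_smul]
      ext
      · simp [ha, hb, mul_comm]
      · simp [ha, hb, hc, hd, hD]
    have h3 : d • e0 - c • e1 = 0 := by
      apply A.injective
      rw [h1, h0, map_zero]; rfl
    have h4 : b • e0 - a • e1 = 0 := by
      apply A.injective
      rw [h2, h0, map_zero]; simp
    have h5 : c = 0 := by
      have := congrFun h3 1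
      simpa [he0, he1] using this
    have h6 : a = 0 := by
      have := congrFun h4 1
      simpa [he0, he1] using this
    have h7 : A e0 = 0 := Prod.ext h6 h5
    have h8 : e0 = 0 := by
      apply A.injective
      rw [h7, map_zero]
    have := congrFun h8 0
    simp [he0] at this
  -- transport the form
  set G : ℂ × ℂ → ℂ := fun z => (starRingEnd ℂ D)⁻¹ * g (p + L z) with hG
  have hGc : ContDiff ℝ ∞ G := by
    have h1 : ContDiff ℝ ∞ fun z : ℂ × ℂ => p + L z :=
      contDiff_const.add ((L : (ℂ × ℂ) →L[ℂ] (Fin 2 → ℂ)).restrictScalars ℝ).contDiff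
    exact contDiff_const.mul (hg.comp h1)
  have hGs : tsupport G ⊆ closedBall (0 : ℂ) ρ ×ˢ closedBall (0 : ℂ) r := by
    refine closure_minimal ?_ (isClosed_closedBall.prod isClosed_closedBall)
    intro z hz
    rw [Function.mem_support] at hz
    have h1 : g (p + L z) ≠ 0 := fun h => hz (by simp [hG, h])
    have h2 := hgs (subset_tsupport _ h1)
    simpa [hA] using h2
  obtain ⟨u, w, huc, hwc, hus, hws, heq⟩ := div_core (h := fun z => h (p + L z)) hr hε
    (isClosed_closedBall (x := (0 : ℂ)) (ε := ρ)) hGc hGs (by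
      intro z hz'
      obtain ⟨h1, h2⟩ := hz z hz'
      refine ⟨?_, h2⟩
      have h3 : ContDiffAt ℝ ∞ h (p + L z) := (h1.restrictScalars (𝕜 := ℝ)).contDiffAt
      have h4 : ContDiff ℝ ∞ fun z : ℂ × ℂ => p + L z :=
        contDiff_const.add ((L : (ℂ × ℂ) →L[ℂ] (Fin 2 → ℂ)).restrictScalars ℝ).contDiff
      exact ContDiffAt.comp z h3 h4.contDiffAt)
  have hAc : ContDiff ℝ ∞ fun y : Fin 2 → ℂ => A (y - p) :=
    ((A : (Fin 2 → ℂ) →L[ℂ] (ℂ × ℂ)).restrictScalars ℝ).contDiff.comp (by fun_prop)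
  set U' : (Fin 2 → ℂ) → ℂ := fun y => u (A (y - p)) with hU'
  have hU'c : ContDiff ℝ ∞ U' := huc.comp hAc
  have hsub : ∀ f : (Fin 2 → ℂ) → ℂ, (∀ y ∉ K0, f y = 0) →
      HasCompactSupport f ∧ tsupport f ⊆ U := by
    intro f hf
    have h1 : tsupport f ⊆ K0 := by
      refine closure_minimal ?_ hKc.isClosed
      intro y hy
      by_contra h
      exact hy (hf y h)
    exact ⟨HasCompactSupport.intro hKc hf, h1.trans hKU⟩
  have hU'0 : ∀ y ∉ K0, U' y = 0 := by
    intro y hy
    by_contra h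
    exact hy (hus (subset_tsupport _ h))
  refine ⟨fun j => if j = 0 then (fun y => -(starRingEnd ℂ a) * U' y)
    else (fun y => -(starRingEnd ℂ b) * U' y), fun y => starRingEnd ℂ D * w (A (y - p)),
    ?_, ?_, ?_, ?_, ?_⟩
  · intro j
    fin_cases j
    · simp only [Fin.zero_eta, if_true]
      refine ⟨contDiff_const.mul hU'c, hsub _ fun y hy => by simp [hU'0 y hy]⟩
    · simp only [Fin.mk_one, Fin.one_eq_zero_iff]
      refine ⟨contDiff_const.mul hU'c, hsub _ fun y hy => by simp [hU'0 y hy]⟩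
  · exact contDiff_const.mul (hwc.comp hAc)
  · refine (hsub _ fun y hy => ?_).1
    have : w (A (y - p)) = 0 := by
      by_contra h
      exact hy (hws (subset_tsupport _ h))
    show starRingEnd ℂ D * w (A (y - p)) = 0
    rw [this, mul_zero]
  · refine (hsub _ fun y hy => ?_).2
    have : w (A (y - p)) = 0 := by
      by_contra h
      exact hy (hws (subset_tsupport _ h))
    show starRingEnd ℂ D * w (A (y - p)) = 0
    rw [this, mul_zero]
  · intro z
    have hud : DifferentiableAt ℝ u (A (z - p)) := huc.differentiable (by simp) _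
    have hUd : DifferentiableAt ℝ U' z := hU'c.differentiable (by simp) _
    have e1' : dbv (fun y => -(starRingEnd ℂ b) * U' y) z e0 =
        -(starRingEnd ℂ b) * dbv u (A (z - p)) (A e0) := by
      rw [dbv_const_mul hUd, hU', dbv_comp_affine A p hud]
    have e2' : dbv (fun y => -(starRingEnd ℂ a) * U' y) z e1 =
        -(starRingEnd ℂ a) * dbv u (A (z - p)) (A e1) := by
      rw [dbv_const_mul hUd, hU', dbv_comp_affine A p hud]
    have hdir : ∀ x y : ℂ, dbv u (A (z - p)) (x, y) =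
        starRingEnd ℂ x * dbv u (A (z - p)) (1, 0) +
          starRingEnd ℂ y * dbv u (A (z - p)) (0, 1) := by
      intro x y
      have : (x, y) = x • ((1 : ℂ), (0 : ℂ)) + y • ((0 : ℂ), (1 : ℂ)) := by simp
      rw [this, dbv_add_dir, dbv_smul_dir, dbv_smul_dir]
    have e3 : A e0 = (a, c) := rfl
    have e4 : A e1 = (b, d) := rfl
    have hkey := heq (A (z - p))
    have hpz : p + L (A (z - p)) = z := by simp [hA]
    rw [hG] at hkey
    simp only [hpz] at hkey
    have hDc : starRingEnd ℂ D ≠ 0 := by simpa using hDne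
    simp only [if_true, Fin.one_eq_zero_iff, OfNat.ofNat_ne_one, if_false]
    rw [e1', e2', e3, e4, hdir a c, hdir b d]
    have hgz : g z = starRingEnd ℂ D * (dbv u (A (z - p)) (0, 1) + h z * w (A (z - p))) := by
      rw [← hkey]
      field_simp
    rw [hgz, hD]
    simp only [map_sub, map_mul]
    ring

end

end Vale.Agent.P267.H439
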