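import Vale.Agent.P267.H439.HolFac
import Vale.Agent.P267.H439.OfLoc

/-!
# P267, package DIV-LOC: the division lemma on a complex surface

`divLocal`: every compactly supported smooth `(0,2)`-form `F` is `∂̄ b₀ + ⟨α, w'⟩` with smooth
`b₀`, `w'` compactly supported near the support of `F` (form asked for by helper692).
-/

set_option linter.unusedVariables false
set_option linter.unusedSectionVars false

open Filter Topology Set Metric
open scoped Manifold ContDiff ComplexConjugate Matrix

namespace Vale.Agent.P267.H439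

open FL

noncomputable section

variable {M : Type*} [TopologicalSpace M] [ChartedSpace C2 M]
variable {ι : Type} [Fintype ι] [DecidableEq ι]

/-- conclusion of the division lemma -/
def DivConcl (L : LB M ι) (α : M → EuclideanSpace ℂ ι) (U : Set M) (F : M → ℂ) : Prop :=
  ∃ (b₀ : M → Fin 2 → ℂ) (w' : M → EuclideanSpace ℂ ι), Reg1 ∞ 0 b₀ ∧ HasCompactSupport b₀ ∧
    tsupport b₀ ⊆ U ∧ Reg2 ∞ 0 w' ∧ HasCompactSupport w' ∧ tsupport w' ⊆ U ∧ L.dual.Sec w' ∧
    ∀ x, F x = dbar1 0 b₀ x + ∑ i, α x i * w' x i

theorem tsupport_add_subset {W : Type*} [AddZeroClass W] (f g : M → W) :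
    tsupport (fun x => f x + g x) ⊆ tsupport f ∪ tsupport g := by
  refine closure_minimal ?_ ((isClosed_tsupport f).union (isClosed_tsupport g))
  intro x hx
  by_contra h
  rw [mem_union, not_or] at h
  apply hx
  simp [image_eq_zero_of_notMem_tsupport h.1, image_eq_zero_of_notMem_tsupport h.2]

theorem act_add' (A : Matrix ι ι ℂ) (v w : EuclideanSpace ℂ ι) :
    LB.act A (v + w) = LB.act A v + LB.act A w := by
  simp only [LB.act]; ext i; simp [Matrix.mulVec_add]

theorem act_smul' (A : Matrix ι ι ℂ) (c : ℂ) (v : EuclideanSpace ℂ ι) :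
    LB.act A (c • v) = c • LB.act A v := by
  simp only [LB.act]; ext i; simp [Matrix.mulVec_smul]

theorem act_zero' (A : Matrix ι ι ℂ) : LB.act A (0 : EuclideanSpace ℂ ι) = 0 := by
  simp only [LB.act]; ext i; simp

variable [IsManifold 𝓘(ℂ, C2) ω M]

theorem DivConcl.add {L : LB M ι} {α : M → EuclideanSpace ℂ ι} {U : Set M} {F G : M → ℂ}
    (hF : DivConcl L α U F) (hG : DivConcl L α U G) : DivConcl L α U fun x => F x + G x := by
  obtain ⟨b, w, h1, h2, h3, h4, h5, h6, h7, h8⟩ := hF
  obtain ⟨b', w', k1, k2, k3, k4, k5, k6, k7, k8⟩ := hG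
  refine ⟨fun x => b x + b' x, fun x => w x + w' x, ?_, h2.add k2,
    (tsupport_add_subset b b').trans (union_subset h3 k3), ?_, h5.add k5,
    (tsupport_add_subset w w').trans (union_subset h6 k6), ?_, ?_⟩
  · rw [reg1_iff_at]
    exact fun x => (h1.at x).add (k1.at x)
  · rw [reg2_iff_at]
    exact fun x => (h4.at x).add (k4.at x)
  · intro x
    show LB.act (L.dual.P x) (w x + w' x) = w x + w' x
    rw [act_add', h7 x, k7 x]
  · intro x
    rw [dbar1_add ((h1.at x).of_le (by simp)) ((k1.at x).of_le (by simp))]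
    show F x + G x = _
    rw [h8 x, k8 x]
    have : ∀ i, α x i * (w x + w' x) i = α x i * w x i + α x i * w' x i := by
      intro i
      rw [PiLp.add_apply, mul_add]
    simp only [this, Finset.sum_add_distrib]
    ring

theorem DivConcl.mono {L : LB M ι} {α : M → EuclideanSpace ℂ ι} {U U' : Set M} {F : M → ℂ}
    (hF : DivConcl L α U F) (h : U ⊆ U') : DivConcl L α U' F := by
  obtain ⟨b, w, h1, h2, h3, h4, h5, h6, h7, h8⟩ := hF
  exact ⟨b, w, h1, h2, h3.trans h, h4, h5, h6.trans h, h7, h8⟩

theorem DivConcl.zero {L : LB M ι} {α : M → EuclideanSpace ℂ ι} {U : Set M} {F : M → ℂ}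
    (hF : ∀ x, F x = 0) : DivConcl L α U F := by
  refine ⟨fun _ _ => 0, fun _ => 0, ?_, ?_, ?_, ?_, ?_, ?_, ?_, ?_⟩
  · rw [reg1_iff_at]; exact fun x => at1_zero
  · exact HasCompactSupport.zero
  · have : tsupport (fun (_ : M) (_ : Fin 2) => (0 : ℂ)) = ∅ :=
      tsupport_eq_empty_iff.2 rfl
    rw [this]; exact empty_subset _
  · rw [reg2_iff_at]; exact fun x => at2_zero
  · exact HasCompactSupport.zero
  · have : tsupport (fun (_ : M) => (0 : EuclideanSpace ℂ ι)) = ∅ :=
      tsupport_eq_empty_iff.2 rfl
    rw [this]; exact empty_subset _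
  · intro x
    rw [LB.act]
    ext i
    simp
  · intro x
    rw [hF x]
    simp [dbar1_zero]

/-- components of a smooth vector valued function in a chart -/
theorem comp_smooth {α : M → EuclideanSpace ℂ ι} (hα : Reg0 ∞ 0 α) {e : Ch M}
    (he : e ∈ atlas C2 M) (i : ι) : ContDiffOn ℝ ∞ (fun z => α (e.symm z) i) e.target := by
  have h1 := hα e he
  rw [LB.loc0_zero] at h1
  exact ((EuclideanSpace.proj i : EuclideanSpace ℂ ι →L[ℂ] ℂ).restrictScalars ℝ).contDiff.comp_contDiffOn h1

variable [T2Space M]

/-- the division lemma near a point -/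
theorem div_at {L : LB M ι} {a : M → Fin 2 → ℂ} (ha : Reg1 ∞ 0 a) {α : M → EuclideanSpace ℂ ι}
    (hα : Reg0 ∞ 0 α) (hs : L.Sec α) (hh : ∀ x i, L.db0 a 0 α x i = 0)
    (hd : Dense {x | α x ≠ 0}) {U : Set M} (hU : IsOpen U) {p : M} (hp : p ∈ U) :
    ∃ N, IsOpen N ∧ p ∈ N ∧ ∀ F : M → ℂ, Reg2 ∞ 0 F → HasCompactSupport F → tsupport F ⊆ N →
      DivConcl L α U F := by
  set e : Ch M := chartAt C2 p with hedef
  have he : e ∈ atlas C2 M := chart_mem_atlas C2 p
  have hpe : p ∈ e.source := mem_chart_source C2 p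
  set Uc : Set C2 := e.target ∩ e.symm ⁻¹' U with hUc
  have hUco : IsOpen Uc := e.symm.isOpen_inter_preimage hU
  have hpUc : e p ∈ Uc := ⟨e.map_source hpe, by simpa [e.left_inv hpe] using hp⟩
  have hαd : ∀ z ∈ e.target, DifferentiableAt ℝ (loc0 0 e α) z := fun z hz =>
    ((hα e he).contDiffAt (e.open_target.mem_nhds hz)).differentiableAt (by simp)
  obtain ⟨V, hVo, hpV, hVU, t, h, htc, htP, hha, hht, hhne⟩ := exists_hol_factor (ι := ι) hUco hpUc
    (P := fun z => L.P (e.symm z)) (a := fun k z => loc1 0 e a z k)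
    (α := fun z i => α (e.symm z) i)
    (fun i j => by
      have := L.smooth i j e he
      rw [LB.loc0_zero] at this
      exact this.mono inter_subset_left)
    (fun z => L.herm _) (fun z => L.idem _) (fun z => L.tr _)
    (fun k => by
      have := ha e he
      exact (contDiffOn_pi.1 this k).mono inter_subset_left)
    (fun i => (comp_smooth hα he i).mono inter_subset_left)
    (fun z hz => by
      have := hs (e.symm z)
      rw [LB.act] at this
      funext i
      exact congrArg (fun v : EuclideanSpace ℂ ι => v i) this)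
    (fun z hz k i => by
      have hzt : z ∈ e.target := hz.1
      -- the equation `db0 = 0` in the chart
      have h1 : ∀ l, dzb k (fun y => α (e.symm y) l) z = (loc1 0 e (dbar0 0 α) z k) l := by
        intro l
        rw [loc1_dbar0 he hzt (hαd z hzt)]
        have h2 := dzb_clm (EuclideanSpace.proj l : EuclideanSpace ℂ ι →L[ℂ] ℂ) (hαd z hzt) k
        rw [LB.loc0_zero] at h2 ⊢
        exact h2
      simp only [h1]
      have h3 : ∀ l, (loc1 0 e (dbar0 0 α) z k) l =
          ∑ q, conj (jac e (e.symm z) q k) * (dbar0 0 α (e.symm z) q) l := by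
        intro l
        simp [loc1]
      have h4 : loc1 0 e a z k = ∑ q, conj (jac e (e.symm z) q k) * a (e.symm z) q := by
        simp [loc1]
      simp only [h3, h4]
      have h5 : ∀ q, ∑ l, L.P (e.symm z) i l * (dbar0 0 α (e.symm z) q) l =
          -(a (e.symm z) q * α (e.symm z) i) := by
        intro q
        have h6 := hh (e.symm z) q
        rw [LB.db0] at h6
        have h7 := congrArg (fun v : EuclideanSpace ℂ ι => v i) h6
        have h8 : ∑ l, L.P (e.symm z) i l * (dbar0 0 α (e.symm z) q) l +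
            a (e.symm z) q * α (e.symm z) i = 0 := h7
        linear_combination h8
      have h9 : ∑ l, L.P (e.symm z) i l * ∑ q, conj (jac e (e.symm z) q k) *
          (dbar0 0 α (e.symm z) q) l = ∑ q, conj (jac e (e.symm z) q k) *
            ∑ l, L.P (e.symm z) i l * (dbar0 0 α (e.symm z) q) l := by
        simp only [Finset.mul_sum]
        rw [Finset.sum_comm]
        exact Finset.sum_congr rfl fun q _ => Finset.sum_congr rfl fun l _ => by ring
      rw [h9, Finset.sum_mul, ← Finset.sum_add_distrib]
      refine Finset.sum_eq_zero fun q _ => ?_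
      rw [h5]
      ring)
    (fun z hz => by
      have hx : e.symm z ∈ e.source := e.map_target hz.1
      have h1 : ∃ᶠ x in 𝓝 (e.symm z), α x ≠ 0 := mem_closure_iff_frequently.1 (hd _)
      have h2 := h1.and_eventually (e.open_source.mem_nhds hx)
      have h3 : Tendsto e (𝓝 (e.symm z)) (𝓝 z) := by
        have := e.continuousAt hx
        rwa [ContinuousAt, e.right_inv hz.1] at this
      refine h3.frequently (h2.mono ?_)
      rintro x ⟨hx1, hx2⟩ h0
      apply hx1
      ext i
      have := congrFun h0 i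
      simp only [e.left_inv hx2] at this
      simpa using this)
  obtain ⟨V', hV', hVV, hdiv⟩ := div_loc (hha _ hpV) (by
    intro hcon
    exact (hhne _ hpV) (hcon.mono fun y hy h0 => h0 hy)) (hVo.mem_nhds hpV)
  have hVt : V ⊆ e.target := hVU.trans inter_subset_left
  refine ⟨e.source ∩ e ⁻¹' interior V', e.isOpen_inter_preimage isOpen_interior,
    ⟨hpe, mem_interior_iff_mem_nhds.2 hV'⟩, ?_⟩
  intro F hF hFc hFN
  -- the form in the chart
  set KF : Set C2 := e '' tsupport F with hKF
  have hFs : tsupport F ⊆ e.source := hFN.trans inter_subset_left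
  have hKFc : IsCompact KF := hFc.isCompact.image_of_continuousOn (e.continuousOn.mono hFs)
  have hKFV : KF ⊆ interior V' := by
    rintro _ ⟨x, hx, rfl⟩
    exact (hFN hx).2
  classical
  set g : C2 → ℂ := fun z => if z ∈ e.target then loc2 0 e F z else 0 with hg
  have hgt : ∀ z ∈ e.target, g z = loc2 0 e F z := fun z hz => if_pos hz
  have hg0 : ∀ z ∉ KF, g z = 0 := by
    intro z hz
    by_cases hzt : z ∈ e.target
    · rw [hgt z hzt, loc2]
      have : F (e.symm z) = 0 := by
        by_contra hne
        exact hz ⟨e.symm z, subset_tsupport _ hne, e.right_inv hzt⟩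
      rw [this, smul_zero, smul_zero]
    · exact if_neg hzt
  have hgc : ContDiff ℝ ∞ g := by
    rw [contDiff_iff_contDiffAt]
    intro z
    by_cases hz : z ∈ KF
    · have hzt : z ∈ e.target := hVt (hVV (interior_subset (hKFV hz)))
      refine ((hF e he).contDiffAt (e.open_target.mem_nhds hzt)).congr_of_eventuallyEq ?_
      filter_upwards [e.open_target.mem_nhds hzt] with y hy
      exact hgt y hy
    · refine (contDiffAt_const (c := (0 : ℂ))).congr_of_eventuallyEq ?_
      filter_upwards [hKFc.isClosed.isOpen_compl.mem_nhds hz] with y hy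
      exact hg0 y hy
  have hgs : tsupport g ⊆ V' := by
    have h1 : tsupport g ⊆ KF := by
      refine closure_minimal ?_ hKFc.isClosed
      intro z hz
      by_contra h2
      exact hz (hg0 z h2)
    exact h1.trans (hKFV.trans interior_subset)
  obtain ⟨b, w, hb, hwc, hwcs, hwV, heq⟩ := hdiv g hgc hgs
  -- supports
  set Kb : Set C2 := tsupport (b 0) ∪ tsupport (b 1) with hKb
  have hKbc : IsCompact Kb := (hb 0).2.1.isCompact.union (hb 1).2.1.isCompact
  have hKbV : Kb ⊆ V := union_subset (hb 0).2.2 (hb 1).2.2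
  have hb0 : ∀ z ∉ Kb, (fun i => b i z) = (0 : Fin 2 → ℂ) := by
    intro z hz
    rw [hKb, mem_union, not_or] at hz
    funext i
    fin_cases i
    · exact image_eq_zero_of_notMem_tsupport hz.1
    · exact image_eq_zero_of_notMem_tsupport hz.2
  have hbsm : ContDiffOn ℝ ∞ (fun z i => b i z) e.target :=
    contDiffOn_pi.2 fun i => (hb i).1.contDiffOn
  set G : C2 → EuclideanSpace ℂ ι := fun z => WithLp.toLp 2 fun i => w z * t z i with hG
  have hG0 : ∀ z ∉ tsupport w, G z = 0 := by
    intro z hz
    rw [hG]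
    ext i
    simp [image_eq_zero_of_notMem_tsupport hz]
  have hGsm : ContDiffOn ℝ ∞ G e.target := by
    intro z hz
    refine ContDiffAt.contDiffWithinAt ?_
    by_cases hzw : z ∈ tsupport w
    · have hzV : z ∈ V := hwV hzw
      rw [contDiffAt_piLp]
      intro i
      exact (hwc.contDiffAt).mul ((htc i).contDiffAt (hVo.mem_nhds hzV))
    · refine (contDiffAt_const (c := (0 : EuclideanSpace ℂ ι))).congr_of_eventuallyEq ?_
      filter_upwards [(isClosed_tsupport w).isOpen_compl.mem_nhds hzw] with y hy
      exact hG0 y hy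
  have hVU' : ∀ K ⊆ V, e.symm '' K ⊆ U := by
    rintro K hK _ ⟨z, hz, rfl⟩
    exact (hVU (hK hz)).2
  have hbsupp := of1_supp (κ := 0) hKbc (hKbV.trans hVt) hb0
  have hwsupp := of2_supp (κ := 0) hwcs.isCompact (hwV.trans hVt) hG0
  refine ⟨of1 0 e fun z i => b i z, of2 0 e G, reg1_of1 he hKbc (hKbV.trans hVt) hb0 hbsm,
    hbsupp.1, hbsupp.2.trans (hVU' _ hKbV), reg2_of2 he hwcs.isCompact (hwV.trans hVt) hG0 hGsm,
    hwsupp.1, hwsupp.2.trans (hVU' _ hwV), ?_, ?_⟩
  · -- section of the dual bundle
    intro x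
    by_cases hx : x ∈ e.source
    · rw [of2_source hx]
      set c1 : ℂ := (jac e x).det ^ (-(0 : ℤ)) with hc1
      set c2 : ℂ := (conj (jac e x).det)⁻¹ with hc2
      by_cases hxw : e x ∈ tsupport w
      · have h1 := htP (e x) (hwV hxw)
        rw [LB.act]
        ext i
        show (Matrix.mulVec (L.dual.P x) ((c1 • c2 • G (e x) : EuclideanSpace ℂ ι) : ι → ℂ)) i =
          (c1 • c2 • G (e x)) i
        have h2 : ∀ l, (c1 • c2 • G (e x) : EuclideanSpace ℂ ι) l = c1 * (c2 * (w (e x) * t (e x) l)) := by
          intro l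
          simp [hG]
        rw [Matrix.mulVec, dotProduct, h2 i, ← h1 i, e.left_inv hx]
        have h3 : ∀ l, L.dual.P x i l = L.P x l i := fun l => rfl
        simp only [h3, h2, Finset.mul_sum]
        exact Finset.sum_congr rfl fun l _ => by ring
      · rw [hG0 _ hxw]
        simp only [smul_zero]
        rw [LB.act]
        ext i
        simp
    · rw [of2_off hx, LB.act]
      ext i
      simp
  · intro x
    by_cases hx : x ∈ e.source
    · have hz : e x ∈ e.target := e.map_source hx
      have hl : loc2 0 e (fun y => dbar1 0 (of1 0 e fun z i => b i z) y +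
          ∑ i, α y i * (of2 0 e G y) i) (e x) =
          loc2 0 e (dbar1 0 (of1 0 e fun z i => b i z)) (e x) +
          ∑ i, α x i * (loc2 0 e (of2 0 e G) (e x)) i := by
        rw [loc2_source hx, loc2_source hx, loc2_source hx]
        simp only [smul_eq_mul, PiLp.smul_apply]
        rw [mul_add, mul_add, Finset.mul_sum, Finset.mul_sum]
        congr 1
        exact Finset.sum_congr rfl fun i _ => by ring
      apply loc2_inj (κ := 0) he hx (s := F)
      rw [hl, ← hgt _ hz, heq (e x), loc2_dbar1_of1 he hz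
        ((hbsm.contDiffAt (e.open_target.mem_nhds hz)).differentiableAt (by simp)),
        loc2_of2 he hz, dzb_eq_dbv, dzb_eq_dbv]
      congr 1
      have h2 : ∀ i, α x i * (G (e x)) i = w (e x) * (α x i * t (e x) i) := by
        intro i
        rw [hG]
        show α x i * (w (e x) * t (e x) i) = _
        ring
      simp only [h2]
      rw [← Finset.mul_sum]
      by_cases hxw : e x ∈ tsupport w
      · have h3 := hht (e x) (hwV hxw)
        simp only [e.left_inv hx] at h3
        rw [h3, mul_comm]
      · rw [image_eq_zero_of_notMem_tsupport hxw]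
        ring
    · have h1 : F x = 0 := by
        by_contra hne
        exact hx (hFs (subset_tsupport _ hne))
      have h2 : x ∉ tsupport (of1 0 e fun z i => b i z) := fun h =>
        hx (symm_image_subset (hKbV.trans hVt) (hbsupp.2 h))
      have h3 : (of1 0 e fun z i => b i z) =ᶠ[𝓝 x] fun _ _ => 0 := by
        filter_upwards [(isClosed_tsupport _).isOpen_compl.mem_nhds h2] with y hy
        exact image_eq_zero_of_notMem_tsupport hy
      rw [h1, dbar1_congr h3, of2_off hx]
      simp [dbar1_zero]

/-- smooth bump functions -/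
theorem exists_bump {N : Set M} (hN : IsOpen N) {p : M} (hp : p ∈ N) :
    ∃ β : M → ℂ, Reg0 ∞ 0 β ∧ HasCompactSupport β ∧ tsupport β ⊆ N ∧ ∃ G, IsOpen G ∧ p ∈ G ∧
      ∀ x ∈ G, β x = 1 := by
  set e : Ch M := chartAt C2 p with hedef
  have he : e ∈ atlas C2 M := chart_mem_atlas C2 p
  have hpe : p ∈ e.source := mem_chart_source C2 p
  have hUco : IsOpen (e.target ∩ e.symm ⁻¹' N) := e.symm.isOpen_inter_preimage hN
  have hpUc : e p ∈ e.target ∩ e.symm ⁻¹' N :=
    ⟨e.map_source hpe, by simpa [e.left_inv hpe] using hp⟩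
  obtain ⟨R, hR, hRU⟩ := Metric.nhds_basis_closedBall.mem_iff.1 (hUco.mem_nhds hpUc)
  have hr : 0 < R / 2 := by positivity
  have hK : closedBall (e p) (2 * (R / 2)) ⊆ e.target ∩ e.symm ⁻¹' N := by
    have : 2 * (R / 2) = R := by ring
    rw [this]; exact hRU
  have hc0 : ∀ z ∉ closedBall (e p) (2 * (R / 2)), cut (e p) hr z = 0 := fun z hz =>
    cut_eq_zero (e p) hr fun h => hz (ball_subset_closedBall h)
  have hs := of0_supp (κ := 0) (isCompact_closedBall (e p) (2 * (R / 2)))
    (hK.trans inter_subset_left) hc0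
  refine ⟨of0 0 e (cut (e p) hr), reg0_of0 he (isCompact_closedBall _ _)
    (hK.trans inter_subset_left) hc0 (cut_contDiff _ _).contDiffOn, hs.1, hs.2.trans ?_,
    e.source ∩ e ⁻¹' ball (e p) (R / 2), e.isOpen_inter_preimage isOpen_ball,
    ⟨hpe, mem_ball_self hr⟩, ?_⟩
  · rintro _ ⟨z, hz, rfl⟩
    exact (hK hz).2
  · intro x hx
    rw [of0_source hx.1, cut_eq_one _ _ (ball_subset_closedBall hx.2)]
    simp

/-- **the division lemma**, form asked for by helper692 (`DivLocal`) -/
theorem divLocal {L : LB M ι} {a : M → Fin 2 → ℂ} (ha : Reg1 ∞ 0 a) {α : M → EuclideanSpace ℂ ι}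
    (hα : Reg0 ∞ 0 α) (hs : L.Sec α) (hh : ∀ x i, L.db0 a 0 α x i = 0)
    (hd : Dense {x | α x ≠ 0}) (U : Set M) (F : M → ℂ) (hU : IsOpen U) (hF : Reg2 ∞ 0 F)
    (hFc : HasCompactSupport F) (hFU : tsupport F ⊆ U) : DivConcl L α U F := by
  have hloc : ∀ p ∈ U, ∃ N, IsOpen N ∧ p ∈ N ∧ ∀ F : M → ℂ, Reg2 ∞ 0 F →
      HasCompactSupport F → tsupport F ⊆ N → DivConcl L α U F :=
    fun p hp => div_at ha hα hs hh hd hU hp
  choose! N hNo hpN hN using hloc
  have hb : ∀ p ∈ U, ∃ β : M → ℂ, Reg0 ∞ 0 β ∧ tsupport β ⊆ N p ∧ ∃ G, IsOpen G ∧ p ∈ G ∧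
      ∀ x ∈ G, β x = 1 := by
    intro p hp
    obtain ⟨β, h1, h2, h3, h4⟩ := exists_bump (hNo p hp) (hpN p hp)
    exact ⟨β, h1, h3, h4⟩
  choose! β hβ hβN G hGo hpG hβ1 using hb
  obtain ⟨T, hTK, hT⟩ := hFc.isCompact.elim_nhds_subcover G fun p hp =>
    (hGo p (hFU hp)).mem_nhds (hpG p (hFU hp))
  -- telescoping
  have key : ∀ (S : Finset M), (∀ p ∈ S, p ∈ U) → ∀ F : M → ℂ, Reg2 ∞ 0 F →
      HasCompactSupport F → tsupport F ⊆ ⋃ p ∈ S, G p → DivConcl L α U F := by
    classical
    intro S
    induction S using Finset.induction_on with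
    | empty =>
      intro _ F hF hFc hFS
      refine DivConcl.zero fun x => ?_
      by_contra hne
      have := hFS (subset_tsupport _ hne)
      simp at this
    | insert q S hq ih =>
      intro hSU F hF hFc hFS
      have hqU : q ∈ U := hSU q (Finset.mem_insert_self q S)
      have h1 : DivConcl L α U fun x => β q x * F x := by
        refine hN q hqU _ ?_ hFc.mul_left ?_
        · rw [reg2_iff_at]
          exact fun x => At2.smul ((hβ q hqU).at x) (hF.at x)
        · refine (closure_mono ?_).trans (hβN q hqU)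
          intro x hx
          rw [Function.mem_support] at hx ⊢
          exact left_ne_zero_of_mul hx
      have h2 : DivConcl L α U fun x => (1 - β q x) * F x := by
        refine ih (fun p hp => hSU p (Finset.mem_insert_of_mem hp)) _ ?_ hFc.mul_left ?_
        · rw [reg2_iff_at]
          intro x
          have h3 : At0 ∞ 0 (fun y => 1 - β q y) x :=
            (at0_const (c := (1 : ℂ))).sub ((hβ q hqU).at x)
          exact At2.smul h3 (hF.at x)
        · intro x hx
          have h3 : x ∈ tsupport F := by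
            refine (closure_mono ?_) hx
            intro y hy
            rw [Function.mem_support] at hy ⊢
            exact right_ne_zero_of_mul hy
          have h4 : x ∉ G q := by
            intro hxG
            have h5 : (fun y => (1 - β q y) * F y) =ᶠ[𝓝 x] fun _ => 0 := by
              filter_upwards [(hGo q hqU).mem_nhds hxG] with y hy
              rw [hβ1 q hqU y hy]
              ring
            exact (notMem_tsupport_iff_eventuallyEq.2 h5) hx
          have h5 := hFS h3
          rw [Finset.set_biUnion_insert] at h5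
          exact h5.resolve_left h4
      have h := h1.add h2
      have h3 : (fun x => β q x * F x + (1 - β q x) * F x) = F := by
        funext x; ring
      rwa [h3] at h
  exact key T (fun p hp => hFU (hTK p hp)) F hF hFc hT

end

end Vale.Agent.P267.H439
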