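import Mathlib

/-!
# P267 (helper439): finite-dimensional cohomology of a three term complex

`FinCoh d0 d1`: the three cohomology spaces of `M0 → M1 → M2` are finite-dimensional;
invariance under isomorphisms of complexes (`FinCoh.congr`); a criterion (`FinCoh.of_maps`).
-/

set_option linter.unusedSectionVars false

open Module

noncomputable section

namespace Vale.Agent.P267.H439

section alg

variable {M0 M1 M2 N0 N1 N2 : Type*} [AddCommGroup M0] [Module ℂ M0] [AddCommGroup M1]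
  [Module ℂ M1] [AddCommGroup M2] [Module ℂ M2] [AddCommGroup N0] [Module ℂ N0]
  [AddCommGroup N1] [Module ℂ N1] [AddCommGroup N2] [Module ℂ N2]

theorem finite_quot_of_ker {M Q : Type*} [AddCommGroup M] [Module ℂ M] [AddCommGroup Q]
    [Module ℂ Q] [FiniteDimensional ℂ Q] (f : M →ₗ[ℂ] Q) (p : Submodule ℂ M)
    (h : LinearMap.ker f ≤ p) : FiniteDimensional ℂ (M ⧸ p) := by
  have h1 : FiniteDimensional ℂ (M ⧸ LinearMap.ker f) :=
    Module.Finite.equiv f.quotKerEquivRange.symm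
  exact Module.Finite.of_surjective (Submodule.factor h) (Submodule.factor_surjective h)

/-- the three cohomology spaces are finite-dimensional -/
structure FinCoh (d0 : M0 →ₗ[ℂ] M1) (d1 : M1 →ₗ[ℂ] M2) : Prop where
  f0 : FiniteDimensional ℂ (LinearMap.ker d0)
  f1 : FiniteDimensional ℂ
    (LinearMap.ker d1 ⧸ (LinearMap.range d0).comap (LinearMap.ker d1).subtype)
  f2 : FiniteDimensional ℂ (M2 ⧸ LinearMap.range d1)

/-- criterion: linear maps to finite-dimensional spaces which detect the cohomology -/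
theorem FinCoh.of_maps {d0 : M0 →ₗ[ℂ] M1} {d1 : M1 →ₗ[ℂ] M2} {Q0 Q1 Q2 : Type*}
    [AddCommGroup Q0] [Module ℂ Q0] [FiniteDimensional ℂ Q0] [AddCommGroup Q1] [Module ℂ Q1]
    [FiniteDimensional ℂ Q1] [AddCommGroup Q2] [Module ℂ Q2] [FiniteDimensional ℂ Q2]
    (g0 : M0 →ₗ[ℂ] Q0) (h0 : ∀ u, d0 u = 0 → g0 u = 0 → u = 0)
    (g1 : M1 →ₗ[ℂ] Q1) (h1 : ∀ w, d1 w = 0 → g1 w = 0 → ∃ u, d0 u = w)
    (g2 : M2 →ₗ[ℂ] Q2) (h2 : ∀ b, g2 b = 0 → ∃ w, d1 w = b) : FinCoh d0 d1 := by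
  refine ⟨?_, ?_, ?_⟩
  · refine Module.Finite.of_injective (g0 ∘ₗ (LinearMap.ker d0).subtype) ?_
    rw [← LinearMap.ker_eq_bot, LinearMap.ker_eq_bot']
    intro u hu
    exact Subtype.ext (h0 u.1 u.2 hu)
  · refine finite_quot_of_ker (g1 ∘ₗ (LinearMap.ker d1).subtype) _ fun w hw => ?_
    exact h1 w.1 w.2 hw
  · exact finite_quot_of_ker g2 _ fun b hb => h2 b hb

theorem FinCoh.exists_map0 {d0 : M0 →ₗ[ℂ] M1} {d1 : M1 →ₗ[ℂ] M2} (_h : FinCoh d0 d1) :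
    ∃ g : M0 →ₗ[ℂ] LinearMap.ker d0, ∀ u, d0 u = 0 → g u = 0 → u = 0 := by
  obtain ⟨g, hg⟩ := (LinearMap.id : LinearMap.ker d0 →ₗ[ℂ] LinearMap.ker d0).exists_extend
  refine ⟨g, fun u hu h0 => ?_⟩
  have h1 := LinearMap.congr_fun hg ⟨u, hu⟩
  change g u = ⟨u, hu⟩ at h1
  rw [h0] at h1
  exact (congrArg Subtype.val h1).symm

theorem FinCoh.exists_map1 {d0 : M0 →ₗ[ℂ] M1} {d1 : M1 →ₗ[ℂ] M2} (_h : FinCoh d0 d1) :
    ∃ g : M1 →ₗ[ℂ] (LinearMap.ker d1 ⧸ (LinearMap.range d0).comap (LinearMap.ker d1).subtype),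
      ∀ w, d1 w = 0 → g w = 0 → ∃ u, d0 u = w := by
  obtain ⟨g, hg⟩ :=
    (((LinearMap.range d0).comap (LinearMap.ker d1).subtype).mkQ).exists_extend
  refine ⟨g, fun w hw h0 => ?_⟩
  have h1 := LinearMap.congr_fun hg ⟨w, hw⟩
  change g w = Submodule.Quotient.mk ⟨w, hw⟩ at h1
  rw [h0] at h1
  exact (Submodule.Quotient.mk_eq_zero _).1 h1.symm

/-- invariance under isomorphisms of complexes -/
theorem FinCoh.congr {d0 : M0 →ₗ[ℂ] M1} {d1 : M1 →ₗ[ℂ] M2} {e0 : N0 →ₗ[ℂ] N1}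
    {e1 : N1 →ₗ[ℂ] N2} (h : FinCoh d0 d1) (f0 : N0 ≃ₗ[ℂ] M0) (f1 : N1 ≃ₗ[ℂ] M1)
    (f2 : N2 ≃ₗ[ℂ] M2) (h0 : ∀ u, f1 (e0 u) = d0 (f0 u)) (h1 : ∀ w, f2 (e1 w) = d1 (f1 w)) :
    FinCoh e0 e1 := by
  obtain ⟨g0, hg0⟩ := h.exists_map0
  obtain ⟨g1, hg1⟩ := h.exists_map1
  have := h.f0
  have := h.f1
  have := h.f2
  refine FinCoh.of_maps (g0 ∘ₗ f0.toLinearMap) (fun u hu hg => ?_) (g1 ∘ₗ f1.toLinearMap)
    (fun w hw hg => ?_) ((LinearMap.range d1).mkQ ∘ₗ f2.toLinearMap) fun b hb => ?_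
  · have h2 : d0 (f0 u) = 0 := by rw [← h0, hu, map_zero]
    have h3 := hg0 (f0 u) h2 hg
    exact f0.injective (by rw [h3, map_zero])
  · have h2 : d1 (f1 w) = 0 := by rw [← h1, hw, map_zero]
    obtain ⟨u, hu⟩ := hg1 (f1 w) h2 hg
    refine ⟨f0.symm u, f1.injective ?_⟩
    rw [h0, LinearEquiv.apply_symm_apply, hu]
  · have h2 : f2 b ∈ LinearMap.range d1 := (Submodule.Quotient.mk_eq_zero _).1 hb
    obtain ⟨w, hw⟩ := h2
    refine ⟨f1.symm w, f2.injective ?_⟩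
    rw [h1, LinearEquiv.apply_symm_apply, hw]

/-! ### submodules of a submodule -/

theorem finite_map_sub {M : Type*} [AddCommGroup M] [Module ℂ M] {S : Submodule ℂ M}
    {Z : Submodule ℂ S} (h : FiniteDimensional ℂ Z) : FiniteDimensional ℂ (Z.map S.subtype) :=
  Module.Finite.equiv (Z.equivMapOfInjective S.subtype S.injective_subtype)

theorem finite_quot_map_sub {M : Type*} [AddCommGroup M] [Module ℂ M] {S : Submodule ℂ M}
    (Z B : Submodule ℂ S) {Z' B' : Submodule ℂ M} (hZ : Z' = Z.map S.subtype)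
    (hB : B' = B.map S.subtype) (h : FiniteDimensional ℂ (Z ⧸ B.comap Z.subtype)) :
    FiniteDimensional ℂ (Z' ⧸ B'.comap Z'.subtype) := by
  subst hZ
  subst hB
  let f : Z ≃ₗ[ℂ] Z.map S.subtype := Z.equivMapOfInjective S.subtype S.injective_subtype
  refine finite_quot_of_ker ((B.comap Z.subtype).mkQ ∘ₗ f.symm.toLinearMap) _ fun y hy => ?_
  obtain ⟨z, rfl⟩ := f.surjective y
  have h1 : z ∈ B.comap Z.subtype := by
    have h2 : (B.comap Z.subtype).mkQ (f.symm (f z)) = 0 := hy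
    rw [LinearEquiv.symm_apply_apply] at h2
    exact (Submodule.Quotient.mk_eq_zero _).1 h2
  exact ⟨z, h1, rfl⟩

theorem finite_quot_congr {M : Type*} [AddCommGroup M] [Module ℂ M] {B B' : Submodule ℂ M}
    (hB : B' = B) (h : FiniteDimensional ℂ (M ⧸ B)) : FiniteDimensional ℂ (M ⧸ B') := by
  subst hB
  exact h

end alg

end Vale.Agent.P267.H439
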