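import Vale.Agent.P267.H439.DbarPoin
import Vale.Agent.P268.Hol

/-!
# P267, package DIV-LOC: a holomorphic section of a line bundle, in a holomorphic dual frame

Everything in one chart (functions on `ℂ²`).  The line bundle is a rank one projector `P`.
-/

set_option linter.unusedVariables false

open Filter Topology MeasureTheory Set Metric
open scoped ContDiff Real ComplexConjugate Matrix ComplexOrder

namespace Vale.Agent.P267.H439

open FL

noncomputable section

section rank

variable {ι : Type*} [Fintype ι] [DecidableEq ι] {P : Matrix ι ι ℂ}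

omit [DecidableEq ι] in
/-- a rank one projector is determined by one of its columns -/
theorem proj_entry (h1 : Pᴴ = P) (h2 : P * P = P) (h3 : P.trace = 1) {j : ι} (hj : P j j ≠ 0)
    (i k : ι) : P i k = P i j * P j k / P j j := by
  set C : Matrix ι ι ℂ := Matrix.of fun i k => P i j * P j k with hC
  have hPC : P * C = C := by
    ext a b
    rw [Matrix.mul_apply]
    simp only [hC, Matrix.of_apply]
    have := congrFun (congrFun h2 a) j
    rw [Matrix.mul_apply] at this
    rw [← this, Finset.sum_mul]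
    exact Finset.sum_congr rfl fun l _ => by ring
  have hCP : C * P = C := by
    ext a b
    rw [Matrix.mul_apply]
    simp only [hC, Matrix.of_apply]
    have := congrFun (congrFun h2 j) b
    rw [Matrix.mul_apply] at this
    rw [← this, Finset.mul_sum]
    exact Finset.sum_congr rfl fun l _ => by ring
  have hCC : C * C = P j j • C := by
    ext a b
    rw [Matrix.mul_apply]
    simp only [hC, Matrix.of_apply, Matrix.smul_apply, smul_eq_mul]
    have := congrFun (congrFun h2 j) j
    rw [Matrix.mul_apply] at this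
    rw [← this, Finset.sum_mul]
    exact Finset.sum_congr rfl fun l _ => by ring
  have hCh : Cᴴ = C := by
    ext a b
    simp only [hC, Matrix.conjTranspose_apply, Matrix.of_apply, star_mul']
    have e1 := congrFun (congrFun h1 j) a
    have e2 := congrFun (congrFun h1 b) j
    rw [Matrix.conjTranspose_apply] at e1 e2
    have e3 := congrFun (congrFun h1 a) j
    have e4 := congrFun (congrFun h1 j) b
    rw [Matrix.conjTranspose_apply] at e3 e4
    rw [e3, e4, mul_comm]
  have hreal : star (P j j) = P j j := by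
    have e1 := congrFun (congrFun h1 j) j
    rwa [Matrix.conjTranspose_apply] at e1
  set Q : Matrix ι ι ℂ := P - (P j j)⁻¹ • C with hQ
  have hQh : Qᴴ = Q := by
    rw [hQ, Matrix.conjTranspose_sub, Matrix.conjTranspose_smul, h1, hCh, star_inv₀, hreal]
  have hinv : (P j j)⁻¹ * (P j j)⁻¹ * P j j = (P j j)⁻¹ := by field_simp
  have hQQ : Q * Q = Q := by
    rw [hQ, Matrix.sub_mul, Matrix.mul_sub, Matrix.mul_sub, h2, Matrix.mul_smul, hPC,
      Matrix.smul_mul, hCP, Matrix.smul_mul, Matrix.mul_smul, hCC, smul_smul, smul_smul,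
      hinv]
    abel
  have htr : Q.trace = 0 := by
    have h4 : C.trace = P j j := by
      rw [Matrix.trace]
      simp only [hC, Matrix.diag_apply, Matrix.of_apply]
      have := congrFun (congrFun h2 j) j
      rw [Matrix.mul_apply] at this
      rw [← this]
      exact Finset.sum_congr rfl fun l _ => by ring
    rw [hQ, Matrix.trace_sub, Matrix.trace_smul, h4, h3, smul_eq_mul, inv_mul_cancel₀ hj, sub_self]
  have hQ0 : Q = 0 := by
    rw [← Matrix.trace_conjTranspose_mul_self_eq_zero_iff, hQh, hQQ, htr]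
  have h5 := congrFun (congrFun hQ0 i) k
  simp only [hQ, Matrix.sub_apply, Matrix.smul_apply, smul_eq_mul, hC, Matrix.of_apply,
    Matrix.zero_apply] at h5
  rw [sub_eq_zero] at h5
  rw [h5]
  field_simp

omit [DecidableEq ι] in
theorem sec_entry (h1 : Pᴴ = P) (h2 : P * P = P) (h3 : P.trace = 1) {j : ι} (hj : P j j ≠ 0)
    {v : ι → ℂ} (hv : P.mulVec v = v) (i : ι) : v i = v j / P j j * P i j := by
  have h4 : ∀ i, v i = ∑ k, P i k * v k := by
    intro i
    have := congrFun hv i
    rw [Matrix.mulVec, dotProduct] at this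
    exact this.symm
  rw [h4 i, h4 j, Finset.sum_div, Finset.sum_mul]
  refine Finset.sum_congr rfl fun k _ => ?_
  rw [proj_entry h1 h2 h3 hj i k]
  field_simp

omit [DecidableEq ι] in
theorem exists_diag_ne (h3 : P.trace = 1) : ∃ j, P j j ≠ 0 := by
  by_contra h
  push Not at h
  have : P.trace = 0 := by
    rw [Matrix.trace]
    exact Finset.sum_eq_zero fun j _ => by rw [Matrix.diag_apply, h j]
  rw [this] at h3
  exact zero_ne_one h3

end rank

theorem contDiffOn_div {E : Type*} [NormedAddCommGroup E] [NormedSpace ℝ E] {n : WithTop ℕ∞}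
    {f g : E → ℂ} {s : Set E} (hf : ContDiffOn ℝ n f s) (hg : ContDiffOn ℝ n g s)
    (h : ∀ z ∈ s, g z ≠ 0) : ContDiffOn ℝ n (fun z => f z / g z) s := by
  simp only [div_eq_mul_inv]
  exact hf.mul (hg.inv h)

theorem dzb_cexp {u : C2 → ℂ} {z : C2} (hu : DifferentiableAt ℝ u z) (k : Fin 2) :
    dzb k (fun y => Complex.exp (u y)) z = Complex.exp (u z) * dzb k u z := by
  have h1 : fderiv ℝ (fun y => Complex.exp (u y)) z = Complex.exp (u z) • fderiv ℝ u z :=
    (hu.hasFDerivAt.cexp).fderiv
  unfold dzb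
  rw [h1]
  simp only [smul_apply, smul_eq_mul]
  ring

/-- **a holomorphic section of a line bundle is locally a holomorphic function times a holomorphic
frame**: here `t` is the holomorphic frame of the dual bundle and `h = ⟨α, t⟩`. -/
theorem exists_hol_factor {ι : Type} [Fintype ι] [DecidableEq ι] {U : Set C2} (hU : IsOpen U)
    {p : C2} (hp : p ∈ U) {P : C2 → Matrix ι ι ℂ}
    (hPs : ∀ i j, ContDiffOn ℝ ∞ (fun z => P z i j) U) (hPh : ∀ z, (P z)ᴴ = P z)
    (hPi : ∀ z, P z * P z = P z) (hPt : ∀ z, (P z).trace = 1)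
    {a : Fin 2 → C2 → ℂ} (ha : ∀ k, ContDiffOn ℝ ∞ (a k) U)
    {α : C2 → ι → ℂ} (hα : ∀ i, ContDiffOn ℝ ∞ (fun z => α z i) U)
    (hPα : ∀ z ∈ U, (P z).mulVec (α z) = α z)
    (hhol : ∀ z ∈ U, ∀ k i, ∑ l, P z i l * dzb k (fun y => α y l) z + a k z * α z i = 0)
    (hd : ∀ z ∈ U, ∃ᶠ y in 𝓝 z, α y ≠ 0) :
    ∃ V, IsOpen V ∧ p ∈ V ∧ V ⊆ U ∧ ∃ (t : C2 → ι → ℂ) (h : C2 → ℂ),
      (∀ i, ContDiffOn ℝ ∞ (fun z => t z i) V) ∧ (∀ z ∈ V, ∀ i, ∑ l, P z l i * t z l = t z i) ∧
      AnalyticOnNhd ℂ h V ∧ (∀ z ∈ V, ∑ i, α z i * t z i = h z) ∧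
      ∀ z ∈ V, ∃ᶠ y in 𝓝 z, h y ≠ 0 := by
  obtain ⟨j, hj⟩ := exists_diag_ne (hPt p)
  set W : Set C2 := U ∩ {z | P z j j ≠ 0} with hW
  have hWo : IsOpen W := (hPs j j).continuousOn.isOpen_inter_preimage hU isOpen_ne
  have hWU : W ⊆ U := inter_subset_left
  have hpW : p ∈ W := ⟨hp, hj⟩
  set f : C2 → ℂ := fun z => α z j / P z j j with hf
  have hfc : ContDiffOn ℝ ∞ f W :=
    contDiffOn_div ((hα j).mono hWU) ((hPs j j).mono hWU) fun z hz => hz.2
  have hαf : ∀ z ∈ W, ∀ i, α z i = f z * P z i j := fun z hz i =>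
    sec_entry (hPh z) (hPi z) (hPt z) hz.2 (hPα z hz.1) i
  have hdz : ∀ {g : C2 → ℂ} (k : Fin 2), ContDiffOn ℝ ∞ g W → ContDiffOn ℝ ∞ (dzb k g) W :=
    fun k hg => contDiffOn_dzb hWo hg (by simp) k
  set θ : Fin 2 → C2 → ℂ := fun k z =>
    a k z + (∑ l, P z j l * dzb k (fun y => P y l j) z) / P z j j with hθ
  have hθc : ∀ k, ContDiffOn ℝ ∞ (θ k) W := by
    intro k
    refine ((ha k).mono hWU).add (contDiffOn_div ?_ ((hPs j j).mono hWU) fun z hz => hz.2)
    exact ContDiffOn.sum fun l _ => ((hPs j l).mono hWU).mul (hdz k ((hPs l j).mono hWU))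
  have hfd : ∀ z ∈ W, ∀ k, dzb k f z = -(θ k z * f z) := by
    intro z hz k
    have hfz : DifferentiableAt ℝ f z :=
      (hfc.contDiffAt (hWo.mem_nhds hz)).differentiableAt (by simp)
    have hPz : ∀ l, DifferentiableAt ℝ (fun y => P y l j) z := fun l =>
      (((hPs l j).mono hWU).contDiffAt (hWo.mem_nhds hz)).differentiableAt (by simp)
    have h1 : ∀ l, dzb k (fun y => α y l) z =
        f z * dzb k (fun y => P y l j) z + dzb k f z * P z l j := by
      intro l
      have h2 : (fun y => α y l) =ᶠ[𝓝 z] fun y => f y * P y l j := by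
        filter_upwards [hWo.mem_nhds hz] with y hy
        exact hαf y hy l
      rw [dzb_congr h2, dzb_mul hfz (hPz l)]
    have h3 := hhol z hz.1 k j
    simp only [h1] at h3
    have h4 : ∑ l, P z j l * (f z * dzb k (fun y => P y l j) z + dzb k f z * P z l j) =
        f z * (∑ l, P z j l * dzb k (fun y => P y l j) z) + dzb k f z * P z j j := by
      have h5 := congrFun (congrFun (hPi z) j) j
      rw [Matrix.mul_apply] at h5
      rw [← h5, Finset.mul_sum, Finset.mul_sum, ← Finset.sum_add_distrib]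
      exact Finset.sum_congr rfl fun l _ => by ring
    rw [h4, hαf z hz j] at h3
    have h6 : P z j j ≠ 0 := hz.2
    simp only [hθ]
    field_simp
    linear_combination h3
  have hcl : ∀ z ∈ W, dzb 0 (θ 1) z = dzb 1 (θ 0) z := by
    -- at points where `f ≠ 0`
    have key : ∀ z ∈ W, f z ≠ 0 → dzb 0 (θ 1) z = dzb 1 (θ 0) z := by
      intro z hz hfz0
      have hfz : DifferentiableAt ℝ f z :=
        (hfc.contDiffAt (hWo.mem_nhds hz)).differentiableAt (by simp)
      have hθz : ∀ k, DifferentiableAt ℝ (θ k) z := fun k =>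
        ((hθc k).contDiffAt (hWo.mem_nhds hz)).differentiableAt (by simp)
      have h1 : ∀ k, dzb k f =ᶠ[𝓝 z] fun y => -(θ k y * f y) := by
        intro k
        filter_upwards [hWo.mem_nhds hz] with y hy
        exact hfd y hy k
      have h2 := dzb_dzb_comm (f := f) (z := z)
        (by exact_mod_cast (contDiffOn_infty.1 hfc 2).contDiffAt (hWo.mem_nhds hz)) 0 1
      rw [dzb_congr (h1 1), dzb_congr (h1 0), dzb_neg, dzb_neg, dzb_mul (hθz 1) hfz,
        dzb_mul (hθz 0) hfz, hfd z hz, hfd z hz] at h2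
      have h3 : f z * (dzb 0 (θ 1) z - dzb 1 (θ 0) z) = 0 := by linear_combination -h2
      rcases mul_eq_zero.1 h3 with h4 | h4
      · exact absurd h4 hfz0
      · exact sub_eq_zero.1 h4
    intro z hz
    by_contra hne
    have hcont : ContinuousOn (fun y => dzb 0 (θ 1) y - dzb 1 (θ 0) y) W :=
      ((hdz 0 (hθc 1)).sub (hdz 1 (hθc 0))).continuousOn
    have h1 : ∀ᶠ y in 𝓝 z, dzb 0 (θ 1) y - dzb 1 (θ 0) y ≠ 0 :=
      (hcont.continuousAt (hWo.mem_nhds hz)).eventually_ne (sub_ne_zero.2 hne)
    obtain ⟨y, hy1, hy2, hy3⟩ := ((hd z hz.1).and_eventually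
      (h1.and (hWo.mem_nhds hz))).exists
    apply hy2
    rw [sub_eq_zero]
    refine key y hy3 fun h0 => hy1 ?_
    funext i
    rw [hαf y hy3 i, h0, zero_mul]
    rfl
  obtain ⟨V, hVo, hpV, hVW, u, huc, hue⟩ := dbar_poincare hWo hpW hθc hcl
  refine ⟨V, hVo, hpV, hVW.trans hWU, fun z i => Complex.exp (u z) * P z j i / P z j j,
    fun z => f z * Complex.exp (u z), ?_, ?_, ?_, ?_, ?_⟩
  · intro i
    refine contDiffOn_div ?_ ((hPs j j).mono (hVW.trans hWU)) fun z hz => (hVW hz).2
    exact (huc.cexp.contDiffOn).mul ((hPs j i).mono (hVW.trans hWU))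
  · intro z hz i
    have h5 := congrFun (congrFun (hPi z) j) i
    rw [Matrix.mul_apply] at h5
    have h6 : ∑ l, P z l i * (Complex.exp (u z) * P z j l / P z j j) =
        Complex.exp (u z) * (∑ l, P z j l * P z l i) / P z j j := by
      rw [Finset.mul_sum, Finset.sum_div]
      exact Finset.sum_congr rfl fun l _ => by ring
    rw [h6, h5]
  · refine Vale.Agent.P268.analyticOnNhd_of_differentiableOn hVo fun z hz => ?_
    refine DifferentiableAt.differentiableWithinAt ?_
    have hfz : DifferentiableAt ℝ f z :=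
      (hfc.contDiffAt (hWo.mem_nhds (hVW hz))).differentiableAt (by simp)
    have huz : DifferentiableAt ℝ u z := huc.differentiable (by simp) z
    have hez : DifferentiableAt ℝ (fun y => Complex.exp (u y)) z := huz.cexp
    have hm : DifferentiableAt ℝ (fun y => f y * Complex.exp (u y)) z := hfz.mul hez
    refine (differentiableAt_complex_iff hm).2 fun k => ?_
    rw [dzb_mul hfz hez, dzb_cexp huz, hue z hz k, hfd z (hVW hz) k]
    ring
  · intro z hz
    have h5 := congrFun (congrFun (hPi z) j) j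
    rw [Matrix.mul_apply] at h5
    have h6 : ∑ i, α z i * (Complex.exp (u z) * P z j i / P z j j) =
        f z * Complex.exp (u z) * (∑ i, P z j i * P z i j) / P z j j := by
      rw [Finset.mul_sum, Finset.sum_div]
      refine Finset.sum_congr rfl fun i _ => ?_
      rw [hαf z (hVW hz) i]
      ring
    rw [h6, h5]
    have h7 : P z j j ≠ 0 := (hVW hz).2
    field_simp
  · intro z hz
    have h1 := hd z (hWU (hVW hz))
    refine (h1.and_eventually (hVo.mem_nhds hz)).mono ?_
    rintro y ⟨hy1, hy2⟩ h0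
    apply hy1
    rcases mul_eq_zero.1 h0 with h2 | h2
    · funext i
      rw [hαf y (hVW hy2) i, h2, zero_mul]
      rfl
    · exact absurd h2 (Complex.exp_ne_zero _)

end

end Vale.Agent.P267.H439
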