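import Mathlib

/-!
# P267, package SERRE: the abstract part of Serre duality

`exact_of_orth`: in a complex with a smoothing homotopy `d P + P d = 1 - S`, a closed element which
is orthogonal to all closed elements of the dual complex is exact.
`finrank_quot_eq`: a perfect pairing gives equality of dimensions.
-/

namespace Vale.Agent.P267.H439.Serre

open Module

section

variable {k : Type*} [Field k]

/-- one half of the comparison of dimensions -/
theorem finrank_quot_le {U U' : Type*} [AddCommGroup U] [Module k U] [AddCommGroup U'] [Module k U']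
    (p : U →ₗ[k] U' →ₗ[k] k) (N : Submodule k U) (N' : Submodule k U')
    (h1 : ∀ u, (∀ u', p u u' = 0) → u ∈ N) (h1' : ∀ u ∈ N, ∀ u', p u u' = 0)
    (h2 : ∀ u' ∈ N', ∀ u, p u u' = 0) [FiniteDimensional k (U' ⧸ N')] :
    FiniteDimensional k (U ⧸ N) ∧ finrank k (U ⧸ N) ≤ finrank k (U' ⧸ N') := by
  let f : U →ₗ[k] Dual k (U' ⧸ N') :=
    { toFun := fun u => N'.liftQ (p u) (fun u' hu' => by
        rw [LinearMap.mem_ker]; exact h2 u' hu' u)
      map_add' := by
        intro a b
        ext x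
        simp
      map_smul' := by
        intro c a
        ext x
        simp }
  have hf : ∀ u u', f u (Submodule.Quotient.mk u') = p u u' := by
    intro u u'
    simp [f]
  have hker : ∀ u ∈ N, f u = 0 := by
    intro u hu
    ext x
    simp [hf, h1' u hu]
  let g : (U ⧸ N) →ₗ[k] Dual k (U' ⧸ N') := N.liftQ f (fun u hu => by
    rw [LinearMap.mem_ker]; exact hker u hu)
  have hg : Function.Injective g := by
    rw [← LinearMap.ker_eq_bot, LinearMap.ker_eq_bot']
    intro x hx
    obtain ⟨u, rfl⟩ := Submodule.Quotient.mk_surjective N x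
    have h3 : f u = 0 := by simpa [g] using hx
    rw [Submodule.Quotient.mk_eq_zero]
    apply h1
    intro u'
    rw [← hf, h3]
    rfl
  refine ⟨FiniteDimensional.of_injective g hg, ?_⟩
  have h4 := LinearMap.finrank_le_finrank_of_injective hg
  rwa [Subspace.dual_finrank_eq] at h4

/-- a perfect pairing gives equality of dimensions -/
theorem finrank_quot_eq {U U' : Type*} [AddCommGroup U] [Module k U] [AddCommGroup U'] [Module k U']
    (p : U →ₗ[k] U' →ₗ[k] k) (N : Submodule k U) (N' : Submodule k U')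
    (h1 : ∀ u, u ∈ N ↔ ∀ u', p u u' = 0) (h2 : ∀ u', u' ∈ N' ↔ ∀ u, p u u' = 0)
    [FiniteDimensional k (U' ⧸ N')] : finrank k (U ⧸ N) = finrank k (U' ⧸ N') := by
  obtain ⟨h3, h4⟩ := finrank_quot_le p N N' (fun u h => (h1 u).2 h) (fun u h => (h1 u).1 h)
    (fun u h => (h2 u).1 h)
  have h5 := finrank_quot_le p.flip N' N (fun u h => (h2 u).2 fun v => by
      simpa using h v) (fun u h v => by simpa using (h2 u).1 h v)
    (fun u h v => by simpa using (h1 u).1 h v)
  exact le_antisymm h4 h5.2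

end

section

variable {Am A Ap B Bp : Type*} [AddCommGroup Am] [Module ℂ Am] [AddCommGroup A] [Module ℂ A]
  [AddCommGroup Ap] [Module ℂ Ap]

/-- **exactness by orthogonality** -/
theorem exact_of_orth (dm : Am →ₗ[ℂ] A) (d : A →ₗ[ℂ] Ap) (hdd : ∀ u, d (dm u) = 0)
    (P : A → Am) (P' : Ap →ₗ[ℂ] A) (S : A → A) (hPS : ∀ u, dm (P u) + P' (d u) + S u = u)
    (𝔅 : Set (A →ₗ[ℂ] ℂ))
    (hFR : ∀ w, d w = 0 → (∀ l ∈ 𝔅, (∀ u, l (dm u) = 0) → l w = 0) → ∃ u, dm u = w)
    (dB : B → Bp) (p : A → B → ℂ) (pm : Am → Bp → ℂ) (c : ℂ) (hc : c ≠ 0)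
    (hSt : ∀ u η, p (dm u) η = c * pm u (dB η)) (zB : Bp)
    (hnd : ∀ ζ : Bp, (∀ u, pm u ζ = 0) → ζ = zB)
    (hsm : ∀ l ∈ 𝔅, ∃ η : B, ∀ u, l (S u) = p u η)
    {w : A} (hw : d w = 0) (horth : ∀ η, dB η = zB → p w η = 0) : ∃ u, dm u = w := by
  refine hFR w hw fun l hl hld => ?_
  obtain ⟨η, hη⟩ := hsm l hl
  have h1 : dB η = zB := by
    refine hnd _ fun u => ?_
    have h2 := hSt u η
    rw [← hη] at h2
    have h3 : S (dm u) = dm (u - P (dm u)) := by
      have h4 := hPS (dm u)
      rw [hdd, map_zero, add_zero] at h4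
      rw [map_sub, eq_sub_iff_add_eq, add_comm]
      exact h4
    rw [h3, hld] at h2
    rcases mul_eq_zero.1 h2.symm with h5 | h5
    · exact absurd h5 hc
    · exact h5
  have h2 : S w = w - dm (P w) := by
    have h4 := hPS w
    rw [hw, map_zero, add_zero] at h4
    rw [eq_sub_iff_add_eq, add_comm]
    exact h4
  have h3 := hη w
  rw [horth η h1, h2, map_sub, hld, sub_zero] at h3
  exact h3

end

end Vale.Agent.P267.H439.Serre
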