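import Vale.Agent.P267.H439.FamC

/-!
# P267, package SERRE: functionals applied to integral operators with smooth kernels
-/

open Filter Topology Set Metric MeasureTheory
open scoped ContDiff

namespace Vale.Agent.P267.H439

noncomputable section

section ev

variable (Y : Type*) [TopologicalSpace Y] [CompactSpace Y]
variable (V' : Type*) [NormedAddCommGroup V'] [NormedSpace ℂ V']
variable (V : Type*) [NormedAddCommGroup V] [NormedSpace ℂ V]

/-- the bounded linear map `C(Y, V' →L V) → (V' →L C(Y, V))` -/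
def evC : C(Y, V' →L[ℂ] V) →L[ℂ] (V' →L[ℂ] C(Y, V)) :=
  LinearMap.mkContinuous₂
    (LinearMap.mk₂ ℂ (fun (f : C(Y, V' →L[ℂ] V)) (v : V') =>
        (⟨fun z => f z v, f.continuous.clm_apply continuous_const⟩ : C(Y, V)))
      (by intro f g v; ext z; simp)
      (by intro c f v; ext z; simp)
      (by intro f v w; ext z; simp)
      (by intro c f v; ext z; simp)) 1
    (by
      intro f v
      rw [one_mul]
      simp only [LinearMap.mk₂_apply]
      rw [ContinuousMap.norm_le _ (by positivity)]
      intro z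
      exact ((f z).le_opNorm v).trans (by gcongr; exact f.norm_coe_le_norm z))

variable {Y V' V} in
theorem evC_apply (f : C(Y, V' →L[ℂ] V)) (v : V') (z : Y) : evC Y V' V f v z = f z v := rfl

end ev

section main

variable {Y : Type*} [TopologicalSpace Y] [CompactSpace Y]
variable {V' : Type} [NormedAddCommGroup V'] [NormedSpace ℂ V']
variable {V : Type} [NormedAddCommGroup V] [NormedSpace ℂ V]
variable {E : Type} [NormedAddCommGroup E] [NormedSpace ℝ E]
variable {E' : Type*} [NormedAddCommGroup E'] [NormedSpace ℝ E']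

/-- the density of the functional `u ↦ l (∫ F · w (u w) dw)` -/
def etaOf (F : Y → E → V' →L[ℂ] V) (l : C(Y, V) →L[ℂ] ℂ) (w : E) : V' →L[ℂ] ℂ :=
  l.comp (evC Y V' V (toC fun y => F y w))

omit [CompactSpace Y] in
theorem continuous_fam {F : Y → E → V' →L[ℂ] V} {w : E}
    (hF : ∀ y, JointAt E' ∞ F y w) : Continuous fun y => F y w := by
  rw [continuous_iff_continuousAt]
  intro z
  have h1 := ((hF z).of_le (m := 0) (by simp)).continuousAt
  exact ContinuousAt.comp (f := fun z : Y => (z, w)) h1 (by fun_prop)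

theorem etaOf_apply {F : Y → E → V' →L[ℂ] V} (l : C(Y, V) →L[ℂ] ℂ) {w : E}
    (hF : ∀ y, JointAt E' ∞ F y w) (v : V') : etaOf F l w v = l (toC fun y => F y w v) := by
  have h1 := continuous_fam hF
  have h2 : evC Y V' V (toC fun y => F y w) v = toC fun y => F y w v := by
    ext y
    rw [evC_apply, toC_apply h1, toC_apply (h1.clm_apply continuous_const)]
  rw [etaOf, ContinuousLinearMap.comp_apply, h2]

/-- `etaOf` is smooth -/
theorem contDiffOn_etaOf {F : Y → E → V' →L[ℂ] V} (l : C(Y, V) →L[ℂ] ℂ) {U : Set E}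
    (hU : IsOpen U) (hF : ∀ y, ∀ w ∈ U, JointAt E' ∞ F y w) : ContDiffOn ℝ ∞ (etaOf F l) U := by
  let T : C(Y, V' →L[ℂ] V) →L[ℂ] (V' →L[ℂ] ℂ) :=
    (ContinuousLinearMap.compL ℂ V' C(Y, V) ℂ l).comp (evC Y V' V)
  exact contDiffOn_functional (𝕜 := ℂ) T hU hF

variable [MeasurableSpace E] [BorelSpace E] (μ : Measure E) [IsFiniteMeasureOnCompacts μ]

/-- **a bounded functional applied to an integral operator with smooth kernel** -/
theorem functional_kernel [CompleteSpace V] {F : Y → E → V' →L[ℂ] V} (l : C(Y, V) →L[ℂ] ℂ)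
    {U : Set E} (hU : IsOpen U) (hF : ∀ y, ∀ w ∈ U, JointAt E' ∞ F y w) {ρ : E → ℝ}
    (hρ : Continuous ρ) (hρc : HasCompactSupport ρ) (hρU : tsupport ρ ⊆ U) {u : E → V'}
    (hu : ContinuousOn u U) {G : C(Y, V)} (hG : ∀ y, G y = ∫ w, ρ w • F y w (u w) ∂μ) :
    l G = ∫ w, (ρ w : ℂ) * etaOf F l w (u w) ∂μ := by
  set g : E → C(Y, V) := fun w => ρ w • evC Y V' V (toC fun y => F y w) (u w) with hg
  have hgc : Continuous g := by
    rw [continuous_iff_continuousAt]
    intro w
    by_cases hw : w ∈ U
    · have h1 : ContinuousAt (fun w => toC fun y => F y w) w :=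
        ((contDiffOn_toC hU hF).continuousOn).continuousAt (hU.mem_nhds hw)
      have h2 : ContinuousAt (fun w => evC Y V' V (toC fun y => F y w)) w :=
        (evC Y V' V).continuous.continuousAt.comp h1
      exact hρ.continuousAt.smul (h2.clm_apply (hu.continuousAt (hU.mem_nhds hw)))
    · have h1 : w ∉ tsupport ρ := fun h => hw (hρU h)
      have h2 : ∀ᶠ y in 𝓝 w, g y = 0 := by
        filter_upwards [(isClosed_tsupport ρ).isOpen_compl.mem_nhds h1] with y hy
        rw [hg]
        simp only
        rw [image_eq_zero_of_notMem_tsupport hy, zero_smul]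
      exact (continuousAt_const (y := (0 : C(Y, V)))).congr_of_eventuallyEq h2
  have hgs : HasCompactSupport g := by
    refine HasCompactSupport.intro hρc fun w hw => ?_
    rw [hg]
    simp only
    rw [image_eq_zero_of_notMem_tsupport hw, zero_smul]
  have hgi : Integrable g μ := hgc.integrable_of_hasCompactSupport hgs
  have hGg : G = ∫ w, g w ∂μ := by
    ext y
    let ev : C(Y, V) →L[ℂ] V := ContinuousMap.evalCLM ℂ y
    have h1 : (∫ w, g w ∂μ) y = ev (∫ w, g w ∂μ) := rfl
    rw [h1, ← ContinuousLinearMap.integral_comp_comm ev hgi, hG]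
    refine integral_congr_ae (Eventually.of_forall fun w => ?_)
    show ρ w • F y w (u w) = ρ w • (evC Y V' V (toC fun y => F y w) (u w)) y
    by_cases hw : w ∈ U
    · rw [evC_apply, toC_apply (continuous_fam fun y => hF y w hw)]
    · have h1 : w ∉ tsupport ρ := fun h => hw (hρU h)
      rw [image_eq_zero_of_notMem_tsupport h1, zero_smul, zero_smul]
  rw [hGg, ← ContinuousLinearMap.integral_comp_comm l hgi]
  refine integral_congr_ae (Eventually.of_forall fun w => ?_)
  show l (g w) = _
  have h1 : g w = ((ρ w : ℂ)) • evC Y V' V (toC fun y => F y w) (u w) := by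
    rw [hg]
    exact (Complex.coe_smul _ _).symm
  rw [h1, map_smul, smul_eq_mul]
  rfl

end main

end

end Vale.Agent.P267.H439
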